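import Vale.Agent.P065.H700.Giant1
import Vale.Agent.P065.H344.NGQ

/-!
# P065, case (I) (slope giants): from the account to the contradiction (helper60)

`sg_close`: the numerical end of case (I), after helper700's `account`.
-/

set_option autoImplicit false

open Finset Real

noncomputable section

namespace Vale.Agent.P065.H60

open Vale.Agent.P065.Ent Vale.Agent.P065.H268 Vale.Agent.P065.H700

/-! ## Numbers -/

/-- `C (1 + log g) ≤ ε g` for large `g` -/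
lemma ev_log (C : ℝ) {ε : ℝ} (hε : 0 < ε) : ∃ g₁ : ℕ, ∀ g : ℕ, g₁ ≤ g →
    C * (1 + log g) ≤ ε * g := by
  have h1 : Filter.Tendsto (fun g : ℕ => log (g : ℝ) / (g : ℝ)) Filter.atTop (nhds 0) := by
    have h := Real.isLittleO_log_id_atTop.tendsto_div_nhds_zero
    exact h.comp tendsto_natCast_atTop_atTop
  have h2 : Filter.Tendsto (fun g : ℕ => (1 : ℝ) / (g : ℝ)) Filter.atTop (nhds 0) :=
    tendsto_one_div_atTop_nhds_zero_nat
  have hC : 0 < |C| + 1 := by positivity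
  have h3 : Filter.Tendsto (fun g : ℕ => (1 : ℝ) / (g : ℝ) + log (g : ℝ) / (g : ℝ)) Filter.atTop
      (nhds 0) := by
    have := h2.add h1
    rwa [add_zero] at this
  have h4 := (h3.eventually (gt_mem_nhds (div_pos hε hC))).and
    (Filter.eventually_ge_atTop 1)
  obtain ⟨g₁, hg₁⟩ := Filter.eventually_atTop.1 h4
  refine ⟨g₁, fun g hg => ?_⟩
  obtain ⟨h5, h6⟩ := hg₁ g hg
  have hg0 : (0 : ℝ) < g := by exact_mod_cast h6
  rw [← add_div, div_lt_div_iff₀ hg0 hC] at h5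
  have h7 : 0 ≤ 1 + log (g : ℝ) := by
    have := log_nonneg (show (1 : ℝ) ≤ g by exact_mod_cast h6)
    linarith
  calc C * (1 + log g) ≤ (|C| + 1) * (1 + log g) :=
        mul_le_mul_of_nonneg_right (by linarith [le_abs_self C]) h7
    _ ≤ ε * g := by linarith

/-- `C (1 + g / log g) ≤ ε g` for large `g` -/
lemma ev_div_log (C : ℝ) {ε : ℝ} (hε : 0 < ε) : ∃ g₁ : ℕ, ∀ g : ℕ, g₁ ≤ g →
    C * (1 + g / log g) ≤ ε * g := by
  have h1 : Filter.Tendsto (fun g : ℕ => (1 : ℝ) / log (g : ℝ)) Filter.atTop (nhds 0) := by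
    have h := (tendsto_inv_atTop_zero.comp Real.tendsto_log_atTop).comp
      (tendsto_natCast_atTop_atTop (R := ℝ))
    refine h.congr fun g => ?_
    simp [one_div]
  have h2 : Filter.Tendsto (fun g : ℕ => (1 : ℝ) / (g : ℝ)) Filter.atTop (nhds 0) :=
    tendsto_one_div_atTop_nhds_zero_nat
  have hC : 0 < |C| + 1 := by positivity
  have h3 : Filter.Tendsto (fun g : ℕ => (1 : ℝ) / (g : ℝ) + 1 / log (g : ℝ)) Filter.atTop
      (nhds 0) := by
    have := h2.add h1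
    rwa [add_zero] at this
  have h4 := (h3.eventually (gt_mem_nhds (div_pos hε hC))).and
    (Filter.eventually_ge_atTop 3)
  obtain ⟨g₁, hg₁⟩ := Filter.eventually_atTop.1 h4
  refine ⟨g₁, fun g hg => ?_⟩
  obtain ⟨h5, h6⟩ := hg₁ g hg
  have hg3 : (3 : ℝ) ≤ g := by exact_mod_cast h6
  have hg0 : (0 : ℝ) < g := by linarith
  have hlog : 0 < log (g : ℝ) := log_pos (by linarith)
  have h7 : 0 ≤ 1 + (g : ℝ) / log g := by positivity
  have h8 : (1 : ℝ) + g / log g = g * (1 / g + 1 / log g) := by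
    field_simp
  calc C * (1 + g / log g) ≤ (|C| + 1) * (1 + g / log g) :=
        mul_le_mul_of_nonneg_right (by linarith [le_abs_self C]) h7
    _ = g * ((|C| + 1) * (1 / g + 1 / log g)) := by rw [h8]; ring
    _ ≤ g * ((|C| + 1) * (ε / (|C| + 1))) := mul_le_mul_of_nonneg_left
        (mul_le_mul_of_nonneg_left h5.le hC.le) hg0.le
    _ = ε * g := by field_simp

/-- guard of the rows -/
lemma exists_gam (B₀ : ℕ) {e : ℝ} (he : 0 < e) : ∃ γ₀ : ℕ, ∀ γ ≥ γ₀,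
    (11 / 2 ^ γ : ℝ) * (2 * log B₀) ≤ e := by
  have h1 : Filter.Tendsto (fun γ : ℕ => (11 * (2 * log B₀)) * ((1 / 2 : ℝ) ^ γ)) Filter.atTop
      (nhds ((11 * (2 * log B₀)) * 0)) :=
    (tendsto_pow_atTop_nhds_zero_of_lt_one (by norm_num) (by norm_num)).const_mul _
  rw [mul_zero] at h1
  obtain ⟨γ₀, h⟩ := Filter.eventually_atTop.1 (h1.eventually (gt_mem_nhds he))
  refine ⟨γ₀, fun γ hγ => ?_⟩
  have h2 := h γ hγ
  have h3 : (11 / 2 ^ γ : ℝ) * (2 * log B₀) = (11 * (2 * log B₀)) * ((1 / 2 : ℝ) ^ γ) := by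
    rw [one_div, inv_pow]
    ring
  rw [h3]
  exact h2.le

/-- window of the cuts -/
lemma exists_win (B₀ m : ℕ) {e : ℝ} (he : 0 < e) : ∃ w₀ : ℕ, ∀ w ≥ w₀,
    (m : ℝ) * (2 / 2 ^ w * (w + 2)) * (2 * log B₀) ≤ e := by
  have h0 : Filter.Tendsto (fun w : ℕ => (w : ℝ) * (1 / 2 : ℝ) ^ w) Filter.atTop (nhds 0) := by
    have := tendsto_self_mul_const_pow_of_lt_one (r := (1 / 2 : ℝ)) (by norm_num) (by norm_num)
    exact this
  have h0' : Filter.Tendsto (fun w : ℕ => (1 / 2 : ℝ) ^ w) Filter.atTop (nhds 0) :=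
    tendsto_pow_atTop_nhds_zero_of_lt_one (by norm_num) (by norm_num)
  have h1 : Filter.Tendsto (fun w : ℕ => ((m : ℝ) * 2 * (2 * log B₀)) *
      ((w : ℝ) * (1 / 2 : ℝ) ^ w + 2 * (1 / 2 : ℝ) ^ w)) Filter.atTop
      (nhds (((m : ℝ) * 2 * (2 * log B₀)) * (0 + 2 * 0))) :=
    (h0.add (h0'.const_mul 2)).const_mul _
  rw [mul_zero, add_zero, mul_zero] at h1
  obtain ⟨w₀, h⟩ := Filter.eventually_atTop.1 (h1.eventually (gt_mem_nhds he))
  refine ⟨w₀, fun w hw => ?_⟩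
  have h2 := h w hw
  have h3 : (m : ℝ) * (2 / 2 ^ w * (w + 2)) * (2 * log B₀) = ((m : ℝ) * 2 * (2 * log B₀)) *
      ((w : ℝ) * (1 / 2 : ℝ) ^ w + 2 * (1 / 2 : ℝ) ^ w) := by
    rw [one_div, inv_pow]
    ring
  rw [h3]
  exact h2.le

/-! ## Surprises of a nested sequence -/

section chain

variable {Ω : Type*} [Fintype Ω] {q : Ω → ℝ} {δ η : Type*}

/-- the surprises of the levels sum up to the surprise of the last cell -/
lemma sum_sur_eq (hq : IsProb q) (D : ℕ → Ω → δ) (hD : ∀ t, Det (D (t + 1)) (D t)) (Y : Ω → η)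
    (T : ℕ) {ω : Ω} (h0 : 0 < q ω) :
    ∑ t ∈ range T, sur q (D (t + 1)) (fun ω => (D t ω, Y ω)) ω =
      sur q (D T) (fun ω => (D 0 ω, Y ω)) ω := by
  have hDn : ∀ n, Det (D n) (D 0) := by
    intro n
    induction n with
    | zero => exact Det.refl _
    | succ n ih => exact (hD n).trans ih
  have key : ∀ s t, Det (D t) (D s) → sur q (D t) (fun ω => (D s ω, Y ω)) ω =
      log (Pr q (fun ω => (D s ω, Y ω)) (D s ω, Y ω)) -
        log (Pr q (fun ω => (D t ω, Y ω)) (D t ω, Y ω)) := by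
    intro s t hst
    unfold sur
    have e1 : Pr q (fun ω => (D t ω, (D s ω, Y ω))) (D t ω, (D s ω, Y ω)) =
        Pr q (fun ω => (D t ω, Y ω)) (D t ω, Y ω) :=
      Pr_congr ((det_fst _ _).pair ((det_snd _ _).trans (det_snd _ _)))
        ((det_fst _ _).pair (((det_fst _ _).trans hst).pair (det_snd _ _))) ω
    have p1 := Pr_pos hq (fun ω => (D t ω, Y ω)) h0
    have p2 := Pr_pos hq (fun ω => (D s ω, Y ω)) h0
    rw [e1, log_div p1.ne' p2.ne']
    ring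
  rw [sum_congr rfl fun t _ => key t (t + 1) (hD t), key 0 T (hDn T)]
  exact sum_range_sub' (fun t => log (Pr q (fun ω => (D t ω, Y ω)) (D t ω, Y ω))) T

open Classical in
/-- the surprises on rare events -/
theorem rare_sur (hq : IsProb q) (D : ℕ → Ω → δ) (hD : ∀ t, Det (D (t + 1)) (D t)) (Y : Ω → η)
    (T : ℕ) {K : ℕ} (hK0 : 0 < K) (hK : #(univ.image (D T)) ≤ K) (Neg : ℕ → Ω → Prop) {d : ℝ}
    (hd : 0 < d) (hd1 : d ≤ 1) (hN : ∑ t ∈ range T, PE q (Neg t) ≤ d) :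
    ∑ t ∈ range T, ∑ ω, q ω * (if Neg t ω then
      sur q (D (t + 1)) (fun ω => (D t ω, Y ω)) ω else 0) ≤ d * (log K + log (1 / d) + 1) := by
  set V : Ω → Prop := fun ω => ∃ t ∈ range T, Neg t ω with hV
  have h1 : PE q V ≤ d := by
    refine le_trans ?_ hN
    rw [PE_eq]
    have e1 : ∀ t ∈ range T, PE q (Neg t) = ∑ ω, if Neg t ω then q ω else 0 := fun t _ =>
      PE_eq q (Neg t)
    rw [sum_congr rfl e1, sum_comm]
    refine sum_le_sum fun ω _ => ?_
    by_cases h : V ω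
    · obtain ⟨t, ht, hn⟩ := h
      have hs : q ω ≤ ∑ t ∈ range T, if Neg t ω then q ω else 0 := by
        have := single_le_sum (f := fun t => if Neg t ω then q ω else 0) (s := range T)
          (fun t _ => by
            show 0 ≤ if Neg t ω then q ω else 0
            split_ifs
            · exact hq.nonneg ω
            · exact le_rfl) ht
        simpa [hn] using this
      split_ifs
      · exact hs
      · exact le_trans (hq.nonneg ω) hs
    · rw [if_neg h]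
      refine sum_nonneg fun t _ => ?_
      split_ifs
      · exact hq.nonneg ω
      · exact le_rfl
  have h2 := H344.rare_le hq (D T) (fun ω => (D 0 ω, Y ω)) hK0 (fun ω => ⟨univ.image (D T), hK,
    fun ω' _ _ => mem_image_of_mem _ (mem_univ ω')⟩) V hd hd1 h1
  refine le_trans ?_ h2
  rw [sum_comm]
  refine sum_le_sum fun ω _ => ?_
  rcases (hq.nonneg ω).eq_or_lt with h0 | h0
  · rw [← h0]
    simp
  · by_cases h : V ω
    · rw [if_pos h]
      have e : q ω * -log (Pr q (fun ω => (D T ω, (D 0 ω, Y ω))) (D T ω, (D 0 ω, Y ω)) /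
          Pr q (fun ω => (D 0 ω, Y ω)) (D 0 ω, Y ω)) =
          q ω * sur q (D T) (fun ω => (D 0 ω, Y ω)) ω := rfl
      rw [e, ← sum_sur_eq hq D hD Y T h0, mul_sum]
      refine sum_le_sum fun t _ => ?_
      have hs := sur_nonneg hq (D (t + 1)) (fun ω => (D t ω, Y ω)) ω
      split_ifs
      · exact le_rfl
      · rw [mul_zero]
        exact mul_nonneg h0.le hs
    · rw [if_neg h]
      refine le_of_eq (sum_eq_zero fun t ht => ?_)
      rw [if_neg fun hn => h ⟨t, ht, hn⟩, mul_zero]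

end chain

/-! ## Late flags -/

section late

variable {Ω Ω' : Type*} [Fintype Ω] [Fintype Ω'] {q : Ω' → ℝ} {η : Type*}

omit [Fintype Ω] in
/-- helper353's line kernel on time cells is the surprise of helper700 -/
lemma sur_eq_kt (P : Pcs Ω) (pr : Ω' → Ω) (Y : Ω' → η) (t : ℕ) (a : Ω') :
    sur q (fun a => P.D (t + 1) (pr a)) (fun a => (P.D t (pr a), Y a)) a =
      -log (H353.kt (P.pull pr) q Y (fun t a => P.D t (pr a)) t a) := by
  unfold sur H353.kt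
  have e1 : Pr q (fun a => (P.D (t + 1) (pr a), (P.D t (pr a), Y a)))
      (P.D (t + 1) (pr a), (P.D t (pr a), Y a)) =
      Pr q (fun a => ((P.D (t + 1) (pr a), P.D t (pr a)), Y a))
      ((P.D (t + 1) (pr a), P.D t (pr a)), Y a) :=
    Pr_congr (X := fun a => (P.D (t + 1) (pr a), (P.D t (pr a), Y a)))
      (Y := fun a => ((P.D (t + 1) (pr a), P.D t (pr a)), Y a))
      (((det_fst _ _).pair ((det_snd _ _).trans (det_fst _ _))).pair
        ((det_snd _ _).trans (det_snd _ _)))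
      (((det_fst _ _).trans (det_fst _ _)).pair (((det_fst _ _).trans (det_snd _ _)).pair
        (det_snd _ _))) a
  rw [e1]
  rfl

end late

/-- the numbers for the late flags -/
lemma late_num (B₀ : ℕ) (hB₀ : 2 ≤ B₀) (m kap : ℕ) {N₀ Cd : ℝ} (hN₀ : 0 ≤ N₀) (hCd : 0 ≤ Cd) :
    ∃ Cl : ℝ, 0 ≤ Cl ∧ ∃ g₁ : ℕ, ∀ g : ℕ, g₁ ≤ g → (2 : ℝ) ≤ g ∧ ∃ ε δ : ℝ,
      0 < ε ∧ ε ≤ 1 / 2 ∧ 0 < δ ∧ δ ≤ 1 ∧
      Cd / g + 2 * ε * (log ((B₀ ^ (2 * g) : ℕ) : ℝ) + log ((g : ℝ) ^ m)) ≤ δ ∧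
      N₀ * (log (1 / (1 / (g : ℝ)) ^ kap) + log (1 / ε)) +
        δ * (log ((B₀ ^ (2 * g) : ℕ) : ℝ) + log (1 / δ) + 1) ≤ Cl * (1 + log g) := by
  have hlB : 0 ≤ log (B₀ : ℝ) := log_nonneg (by exact_mod_cast (by omega : 1 ≤ B₀))
  have hm0 : (0 : ℝ) ≤ m := Nat.cast_nonneg m
  set Ce : ℝ := Cd + 4 * log B₀ + 2 * m + 1 with hCe
  have hCe1 : 1 ≤ Ce := by linarith
  obtain ⟨g₁, hg₁⟩ := exists_nat_ge Ce
  refine ⟨N₀ * (kap + 2) + Ce * (2 * log B₀ + 2), by positivity, max g₁ 2, fun g hg => ?_⟩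
  have hg2 : (2 : ℝ) ≤ g := by exact_mod_cast (le_max_right _ _).trans hg
  have hgC : Ce ≤ g := hg₁.trans (by exact_mod_cast (le_max_left _ _).trans hg)
  have hg0 : (0 : ℝ) < g := by linarith
  have hlg0 : 0 ≤ log (g : ℝ) := log_nonneg (by linarith)
  have hlgg : log (g : ℝ) ≤ g := (log_le_sub_one_of_pos hg0).trans (by linarith)
  have hKlog : log ((B₀ ^ (2 * g) : ℕ) : ℝ) = 2 * g * log B₀ := by
    push_cast
    rw [log_pow]
    push_cast
    ring
  have hdlog : log ((g : ℝ) ^ m) ≤ m * g := by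
    rw [log_pow]
    exact mul_le_mul_of_nonneg_left hlgg hm0
  have hε : (1 / (g : ℝ)) ^ 2 ≤ 1 / 2 := by
    have h1 : 1 / (g : ℝ) ≤ 1 / 2 := div_le_div_of_nonneg_left zero_le_one (by norm_num) hg2
    have h2 : 0 ≤ 1 / (g : ℝ) := by positivity
    nlinarith
  have e2 : log (1 / (1 / (g : ℝ)) ^ kap) = kap * log g := by
    rw [one_div_pow, one_div_one_div, log_pow]
  have e3 : log (1 / (1 / (g : ℝ)) ^ 2) = 2 * log g := by
    rw [one_div_pow, one_div_one_div, log_pow]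
    push_cast
    ring
  clear_value Ce
  refine ⟨hg2, (1 / (g : ℝ)) ^ 2, Ce / g, by positivity, hε, by positivity,
    (div_le_one hg0).2 hgC, ?_, ?_⟩
  · rw [hKlog]
    have h1 : 2 * (1 / (g : ℝ)) ^ 2 * (2 * g * log B₀ + log ((g : ℝ) ^ m)) ≤
        2 * (1 / (g : ℝ)) ^ 2 * (2 * g * log B₀ + m * g) :=
      mul_le_mul_of_nonneg_left (by linarith) (by positivity)
    have h2 : 2 * (1 / (g : ℝ)) ^ 2 * (2 * g * log B₀ + m * g) = (4 * log B₀ + 2 * m) / g := by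
      field_simp
      ring
    have h3 : Cd / g + (4 * log B₀ + 2 * m) / g ≤ Ce / g := by
      rw [← add_div]
      exact div_le_div_of_nonneg_right (by linarith) hg0.le
    linarith
  · rw [e2, e3, hKlog]
    have hd0 : 0 < Ce / (g : ℝ) := by positivity
    have e4 : log (1 / (Ce / g)) ≤ g := by
      have h6 : log (1 / (Ce / g)) ≤ 1 / (Ce / g) - 1 := log_le_sub_one_of_pos (by positivity)
      have h7 : 1 / (Ce / (g : ℝ)) ≤ g := by
        rw [one_div_div, div_le_iff₀ (by linarith)]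
        nlinarith
      linarith
    have e5 : Ce / g * (2 * g * log B₀ + log (1 / (Ce / g)) + 1) ≤ Ce * (2 * log B₀ + 2) := by
      have h6 : Ce / g * (2 * g * log B₀ + log (1 / (Ce / g)) + 1) ≤
          Ce / g * (2 * g * log B₀ + g + g) :=
        mul_le_mul_of_nonneg_left (by linarith) hd0.le
      have h7 : Ce / g * (2 * g * log B₀ + g + g) = Ce * (2 * log B₀ + 2) := by
        field_simp
        ring
      linarith
    have e6 : N₀ * (kap * log g + 2 * log g) ≤ N₀ * (kap + 2) * (1 + log g) := by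
      have h6 : 0 ≤ N₀ * ((kap : ℝ) + 2) := by positivity
      nlinarith
    have e7 : Ce * (2 * log B₀ + 2) ≤ Ce * (2 * log B₀ + 2) * (1 + log g) := by
      have h6 : 0 ≤ Ce * (2 * log B₀ + 2) := by positivity
      nlinarith
    nlinarith

open Classical in
/-- **late flags**: the numerical form of helper344's theorem -/
theorem late_close (B₀ : ℕ) (hB₀ : 2 ≤ B₀) (m kap : ℕ) {N₀ Cd : ℝ} (hN₀ : 0 ≤ N₀)
    (hCd : 0 ≤ Cd) :
    ∃ Cl : ℝ, 0 ≤ Cl ∧ ∃ g₁ : ℕ, ∀ g : ℕ, g₁ ≤ g → ∀ {Ω Ω' : Type*} [Fintype Ω] [Fintype Ω']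
      {ν : Ω → ℝ} {q : Ω' → ℝ} {pr : Ω' → Ω} {L η : Type*} (P : Pcs Ω) (_ : IsProb ν)
      (ln : Ω → L) (_ : IsProb q) {Y : Ω' → η} (_ : Det Y (fun a => ln (pr a))) (T : ℕ)
      (_ : ∀ v, Pr q pr v ≤ (g : ℝ) ^ m * ν v) (_ : #(univ.image (P.D T)) ≤ B₀ ^ (2 * g))
      (lg : ℕ → Ω' → Prop) (_ : ∀ a, 0 < q a → (#{t ∈ range T | lg t a} : ℝ) ≤ N₀)
      (_ : PE q (fun a => ∃ t < T, Pr ν (fun v => (P.D (t + 1) v, ln v))
        (P.D (t + 1) (pr a), ln (pr a)) ≤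
          (1 / (g : ℝ)) ^ kap * Pr ν (fun v => (P.D t v, ln v)) (P.D t (pr a), ln (pr a))) ≤
        Cd / g),
      ∑ t ∈ range T, ∑ a, q a * (if lg t a then
        sur q (fun a => P.D (t + 1) (pr a)) (fun a => (P.D t (pr a), Y a)) a else 0) ≤
        Cl * (1 + log g) := by
  obtain ⟨Cl, hCl, g₁, h₁⟩ := late_num B₀ hB₀ m kap hN₀ hCd
  refine ⟨Cl, hCl, g₁, fun g hg => ?_⟩
  intro Ω Ω' _ _ ν q pr L η P hν ln hq Y hY T hd hDK lg hlg hNG
  obtain ⟨hg2, ε, δ, hε0, hε1, hδ0, hδ1, hE, hfin⟩ := h₁ g hg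
  have hg0 : (0 : ℝ) < g := by linarith
  have hi0 : 0 < 1 / (g : ℝ) := by positivity
  have hi1 : 1 / (g : ℝ) ≤ 1 := by
    rw [div_le_one hg0]
    linarith
  have hKpos : 0 < B₀ ^ (2 * g) := Nat.pow_pos (by omega)
  have h := H344.ngq_nu (q := q) (pr := pr) (Y := Y) (R := fun t a => P.D t (pr a)) P hν ln hq hY
    (fun t a a' h => P.D_nest (Nat.le_succ t) h) (fun t => Det.refl _) T
    (d := (g : ℝ) ^ m) (pow_pos hg0 m) hd hKpos hDK lg
    (N₀ := N₀) (κ := (1 / (g : ℝ)) ^ kap) (ε := ε) (δ := δ) (d₀ := Cd / g)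
    hlg (pow_pos hi0 kap) (pow_le_one₀ hi0.le hi1) hε0 hε1 hNG hKpos
    (fun a => ⟨univ.image (P.D T), hDK, fun a' _ _ => mem_image_of_mem _ (mem_univ _)⟩) hδ0 hδ1 hE
  have e1 : ∑ t ∈ range T, ∑ a, q a * (if lg t a then
        sur q (fun a => P.D (t + 1) (pr a)) (fun a => (P.D t (pr a), Y a)) a else 0) =
      ∑ a, q a * ∑ t ∈ range T with lg t a,
        -log (H353.kt (P.pull pr) q Y (fun t a => P.D t (pr a)) t a) := by
    rw [sum_comm]
    refine sum_congr rfl fun a _ => ?_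
    rw [← mul_sum, sum_filter]
    congr 1
    refine sum_congr rfl fun t _ => ?_
    rw [sur_eq_kt]
  rw [e1]
  exact h.trans hfin

/-! ## The end of case (I) -/

section acc

variable {Ω : Type*} [Fintype Ω] {q : Ω → ℝ}

open Classical in
lemma acc_pt {a S lam : ℝ} (ha : 0 ≤ a) (hS : 0 ≤ S) (hlog : 0 ≤ -log lam) (hl0 : 0 < lam)
    (X A B C Z E N G M : Prop) (hX : X → B ∨ C ∨ E) (hZ : Z → A ∨ N) :
    a * ((if X then S else 0) + (if Z then S + 1 - log lam + 2 * lam else 0) +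
      (if G then - log lam else 0) + (if M then 2 * lam else 0)) ≤
    a * (if A then S else 0) + a * (if B then S else 0) + a * (if C then S else 0) +
      a * (if E then S else 0) + a * (if N then S else 0) +
      (1 - log lam + 2 * lam) * (if N then a else 0) +
      (1 - log lam + 2 * lam) * (a * (if A then 1 else 0)) +
      -log lam * (a * (if G then 1 else 0)) + 2 * lam * (a * (if M then 1 else 0)) := by
  have e1 : (if X then S else 0) ≤ (if B then S else 0) + (if C then S else 0) +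
      (if E then S else 0) := by
    by_cases c0 : X
    · rw [if_pos c0]
      rcases hX c0 with h | h | h
      all_goals
        rw [if_pos h]
        split_ifs <;> linarith
    · rw [if_neg c0]
      split_ifs <;> linarith
  have e2 := mul_le_mul_of_nonneg_left e1 ha
  have e3 : a * (if Z then S + 1 - log lam + 2 * lam else 0) ≤ a * (if A then S else 0) +
      a * (if N then S else 0) + (1 - log lam + 2 * lam) * (if N then a else 0) +
      (1 - log lam + 2 * lam) * (a * (if A then 1 else 0)) := by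
    have k1 : 0 ≤ a * S := mul_nonneg ha hS
    have k2 : 0 ≤ (1 - log lam + 2 * lam) * a := mul_nonneg (by linarith) ha
    by_cases c0 : Z
    · rw [if_pos c0]
      rcases hZ c0 with h | h
      · rw [if_pos h, if_pos h]
        split_ifs <;> nlinarith
      · rw [if_pos h, if_pos h]
        split_ifs <;> nlinarith
    · rw [if_neg c0]
      split_ifs <;> nlinarith
  have e4 : a * (if G then - log lam else 0) = -log lam * (a * (if G then 1 else 0)) := by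
    split_ifs <;> ring
  have e5 : a * (if M then 2 * lam else 0) = 2 * lam * (a * (if M then 1 else 0)) := by
    split_ifs <;> ring
  rw [mul_add, mul_add, mul_add, e4, e5]
  rw [mul_add, mul_add] at e2
  linarith

open Classical in
lemma avg_count_le (hq : IsProb q) (T : ℕ) (B : ℕ → Ω → Prop) (M : ℝ)
    (hM : ∀ ω, 0 < q ω → (#{t ∈ range T | B t ω} : ℝ) ≤ M) :
    ∑ t ∈ range T, ∑ ω, q ω * (if B t ω then (1 : ℝ) else 0) ≤ M := by
  have fcount : ∑ t ∈ range T, ∑ ω, q ω * (if B t ω then (1 : ℝ) else 0) =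
      ∑ ω, q ω * (#{t ∈ range T | B t ω} : ℝ) := by
    rw [sum_comm]
    refine sum_congr rfl fun ω _ => ?_
    rw [← mul_sum]
    congr 1
    rw [sum_ite, sum_const_zero, add_zero, sum_const, nsmul_eq_mul, mul_one]
  rw [fcount]
  calc ∑ ω, q ω * (#{t ∈ range T | B t ω} : ℝ) ≤ ∑ ω, q ω * M := by
        refine sum_le_sum fun ω _ => ?_
        rcases (hq.nonneg ω).eq_or_lt with h0 | h0
        · rw [← h0, zero_mul, zero_mul]
        · exact mul_le_mul_of_nonneg_left (hM ω h0) h0.le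
    _ = M := by rw [← sum_mul, hq.sum, one_mul]

open Classical in
/-- the account, summed up -/
theorem acc_sum (hq : IsProb q) (S : ℕ → Ω → ℝ) (hS : ∀ t ω, 0 ≤ S t ω) {lam : ℝ}
    (hl0 : 0 < lam) (hlog : 0 ≤ -log lam) (T : ℕ) (X A B C Z E N G M : ℕ → Ω → Prop)
    (hX : ∀ t ω, X t ω → B t ω ∨ C t ω ∨ E t ω) (hZ : ∀ t ω, Z t ω → A t ω ∨ N t ω)
    {MA MG MM : ℝ} (hA : ∀ ω, 0 < q ω → (#{t ∈ range T | A t ω} : ℝ) ≤ MA)
    (hG : ∀ ω, 0 < q ω → (#{t ∈ range T | G t ω} : ℝ) ≤ MG)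
    (hM : ∀ ω, 0 < q ω → (#{t ∈ range T | M t ω} : ℝ) ≤ MM) :
    ∑ t ∈ range T, ∑ ω, q ω * ((if X t ω then S t ω else 0) +
      (if Z t ω then S t ω + 1 - log lam + 2 * lam else 0) +
      (if G t ω then - log lam else 0) + (if M t ω then 2 * lam else 0)) ≤
    ∑ t ∈ range T, ∑ ω, q ω * (if A t ω then S t ω else 0) +
    ∑ t ∈ range T, ∑ ω, q ω * (if B t ω then S t ω else 0) +
    ∑ t ∈ range T, ∑ ω, q ω * (if C t ω then S t ω else 0) +
    ∑ t ∈ range T, ∑ ω, q ω * (if E t ω then S t ω else 0) +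
    ∑ t ∈ range T, ∑ ω, q ω * (if N t ω then S t ω else 0) +
    (1 - log lam + 2 * lam) * ∑ t ∈ range T, PE q (N t) + (1 - log lam + 2 * lam) * MA +
      -log lam * MG + 2 * lam * MM := by
  refine (sum_le_sum fun t _ => sum_le_sum fun ω _ =>
    acc_pt (hq.nonneg ω) (hS t ω) hlog hl0 (X t ω) (A t ω) (B t ω) (C t ω) (Z t ω) (E t ω) (N t ω)
      (G t ω) (M t ω) (hX t ω) (hZ t ω)).trans ?_
  simp only [sum_add_distrib]
  have f1 : ∑ t ∈ range T, ∑ ω, (1 - log lam + 2 * lam) * (if N t ω then q ω else 0) =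
      (1 - log lam + 2 * lam) * ∑ t ∈ range T, PE q (N t) := by
    rw [mul_sum]
    refine sum_congr rfl fun t _ => ?_
    rw [PE_eq, mul_sum]
  have f2 : ∑ t ∈ range T, ∑ ω, -log lam * (q ω * (if G t ω then (1 : ℝ) else 0)) ≤
      -log lam * MG := by
    have e1 : ∑ t ∈ range T, ∑ ω, -log lam * (q ω * (if G t ω then (1 : ℝ) else 0)) =
        -log lam * ∑ t ∈ range T, ∑ ω, q ω * (if G t ω then (1 : ℝ) else 0) := by
      rw [mul_sum]
      exact sum_congr rfl fun t _ => (mul_sum _ _ _).symm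
    rw [e1]
    exact mul_le_mul_of_nonneg_left (avg_count_le hq T G _ hG) hlog
  have f3 : ∑ t ∈ range T, ∑ ω, 2 * lam * (q ω * (if M t ω then (1 : ℝ) else 0)) ≤
      2 * lam * MM := by
    have e1 : ∑ t ∈ range T, ∑ ω, 2 * lam * (q ω * (if M t ω then (1 : ℝ) else 0)) =
        2 * lam * ∑ t ∈ range T, ∑ ω, q ω * (if M t ω then (1 : ℝ) else 0) := by
      rw [mul_sum]
      exact sum_congr rfl fun t _ => (mul_sum _ _ _).symm
    rw [e1]
    exact mul_le_mul_of_nonneg_left (avg_count_le hq T M _ hM) (by positivity)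
  have f4 : ∑ t ∈ range T, ∑ ω, (1 - log lam + 2 * lam) *
      (q ω * (if A t ω then (1 : ℝ) else 0)) ≤ (1 - log lam + 2 * lam) * MA := by
    have e1 : ∑ t ∈ range T, ∑ ω, (1 - log lam + 2 * lam) *
        (q ω * (if A t ω then (1 : ℝ) else 0)) = (1 - log lam + 2 * lam) *
        ∑ t ∈ range T, ∑ ω, q ω * (if A t ω then (1 : ℝ) else 0) := by
      rw [mul_sum]
      exact sum_congr rfl fun t _ => (mul_sum _ _ _).symm
    rw [e1]
    exact mul_le_mul_of_nonneg_left (avg_count_le hq T A _ hA) (by linarith)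
  rw [f1]
  linarith

end acc

/-- the numbers -/
lemma sg_num {c₂ e : ℝ} (he : 0 < e) (h20 : 20 * e ≤ c₂) {B₀ : ℕ} (hB₀ : 2 ≤ B₀)
    {Cb Cs Cn : ℝ} (Cl r₀ P₁ : ℝ) (hCs : 0 ≤ Cs) (hCn : 0 ≤ Cn) :
    ∃ lam : ℝ, 0 < lam ∧ lam ≤ 1 / 2 ∧ ∃ g₁ : ℕ, ∀ g : ℕ, g₁ ≤ g → (1 : ℝ) ≤ g ∧
      0 < (Cn + 1) / g ∧ (Cn + 1) / g ≤ 1 ∧ ∀ {H sL sNL sNR sC sN pN : ℝ},
        c₂ * g - r₀ * (1 + log g) ≤ H →
        H ≤ sL + sNL + sNR + sC + sN + (1 - log lam + 2 * lam) * pN +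
          (1 - log lam + 2 * lam) * P₁ +
          -log lam * (Cb * (1 + g / log g)) + 2 * lam * (Cs * g) →
        sL ≤ Cl * (1 + log g) → sNL ≤ e * g → sNR ≤ e * g → sC ≤ e * g →
        sN ≤ (Cn + 1) / g * (log ((B₀ ^ (2 * g) : ℕ) : ℝ) + log (1 / ((Cn + 1) / g)) + 1) →
        pN ≤ (Cn + 1) / g → False := by
  set lam : ℝ := min (1 / 2) (e / (2 * (Cs + 1))) with hlam
  have hl0 : 0 < lam := lt_min (by norm_num) (by positivity)
  have hl1 : lam ≤ 1 / 2 := min_le_left _ _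
  have hl2 : 2 * lam * Cs ≤ e := by
    have h1 : lam ≤ e / (2 * (Cs + 1)) := min_le_right _ _
    rw [le_div_iff₀ (by positivity)] at h1
    nlinarith
  have hlog : 0 ≤ -log lam := by
    have := log_nonpos hl0.le (by linarith)
    linarith
  set Cn' : ℝ := Cn + 1 with hCn'
  have hCn'0 : 0 < Cn' := by positivity
  have hlB : 0 ≤ log (B₀ : ℝ) := log_nonneg (by exact_mod_cast (by omega : 1 ≤ B₀))
  set Cc : ℝ := Cn' * (2 * log B₀ + 2 + (1 - log lam + 2 * lam)) with hCc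
  obtain ⟨g₁, h₁⟩ := ev_log Cl he
  obtain ⟨g₂, h₂⟩ := ev_log r₀ he
  obtain ⟨g₃, h₃⟩ := ev_div_log (-log lam * Cb) he
  obtain ⟨g₄, h₄⟩ := exists_nat_ge (max (Cc / e) Cn')
  obtain ⟨g₅, h₅⟩ := ev_log ((1 - log lam + 2 * lam) * |P₁|) he
  refine ⟨lam, hl0, hl1, max (max (max g₁ g₂) (max g₃ g₄)) (max g₅ 3), fun g hg => ?_⟩
  have hg4 : g₄ ≤ g := by omega
  have hg5 : 3 ≤ g := by omega
  have hgr : (3 : ℝ) ≤ g := by exact_mod_cast hg5
  have hg0 : (0 : ℝ) < g := by linarith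
  have hg4' : (g₄ : ℝ) ≤ g := by exact_mod_cast hg4
  have a1 := h₁ g (by omega)
  have a2 := h₂ g (by omega)
  have a3 := h₃ g (by omega)
  have a6 := h₅ g (by omega)
  have a4 : Cc ≤ e * g := by
    have h5 : Cc / e ≤ g := (le_max_left _ _).trans (h₄.trans hg4')
    rw [div_le_iff₀ he] at h5
    linarith
  have a5 : Cn' ≤ g := (le_max_right _ _).trans (h₄.trans hg4')
  clear_value Cn' lam
  set d : ℝ := Cn' / g with hd
  have hd0 : 0 < d := div_pos hCn'0 hg0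
  have hd1 : d ≤ 1 := (div_le_one hg0).2 a5
  refine ⟨by linarith, hd0, hd1, ?_⟩
  intro H sL sNL sNR sC sN pN b1 b2 b3 b4 b5 b6 b7 b8
  have hKlog : log ((B₀ ^ (2 * g) : ℕ) : ℝ) = 2 * g * log B₀ := by
    push_cast
    rw [log_pow]
    push_cast
    ring
  have hdlog : log (1 / d) ≤ g := by
    have h6 : log (1 / d) ≤ 1 / d - 1 := log_le_sub_one_of_pos (by positivity)
    have h7 : 1 / d ≤ g := by
      rw [hd, one_div_div, div_le_iff₀ hCn'0]
      nlinarith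
    linarith
  have c1 : sN ≤ Cn' * (2 * log B₀ + 2) := by
    refine b7.trans ?_
    rw [hKlog]
    have e1 : d * (2 * g * log B₀ + log (1 / d) + 1) ≤ d * (2 * g * log B₀ + g + g) :=
      mul_le_mul_of_nonneg_left (by linarith) hd0.le
    have e2 : d * (2 * g * log B₀ + g + g) = Cn' * (2 * log B₀ + 2) := by
      rw [hd]
      field_simp
      ring
    linarith
  have c2 : (1 - log lam + 2 * lam) * pN ≤ Cn' * (1 - log lam + 2 * lam) := by
    have h6 : 0 ≤ 1 - log lam + 2 * lam := by linarith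
    have h7 : d ≤ Cn' := by
      rw [hd, div_le_iff₀ hg0]
      nlinarith
    calc (1 - log lam + 2 * lam) * pN ≤ (1 - log lam + 2 * lam) * Cn' :=
          mul_le_mul_of_nonneg_left (b8.trans h7) h6
      _ = _ := by ring
  have c3 : Cn' * (2 * log B₀ + 2) + Cn' * (1 - log lam + 2 * lam) = Cc := by
    rw [hCc]
    ring
  have c6 : (1 - log lam + 2 * lam) * P₁ ≤ e * g := by
    have h6 : 0 ≤ 1 - log lam + 2 * lam := by linarith
    have h7 : 0 ≤ log (g : ℝ) := log_nonneg (by linarith)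
    have h10 : (1 - log lam + 2 * lam) * P₁ ≤ (1 - log lam + 2 * lam) * |P₁| :=
      mul_le_mul_of_nonneg_left (le_abs_self P₁) h6
    have h11 : 0 ≤ (1 - log lam + 2 * lam) * |P₁| := mul_nonneg h6 (abs_nonneg _)
    have h12 : (1 - log lam + 2 * lam) * |P₁| ≤ (1 - log lam + 2 * lam) * |P₁| * (1 + log g) :=
      le_mul_of_one_le_right h11 (by linarith)
    linarith
  have c4 : -log lam * (Cb * (1 + g / log g)) ≤ e * g := by
    rw [← mul_assoc]
    exact a3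
  have c5 : 2 * lam * (Cs * g) ≤ e * g := by
    rw [← mul_assoc]
    exact mul_le_mul_of_nonneg_right hl2 hg0.le
  have h8 : 0 < e * g := mul_pos he hg0
  have h9 : 20 * e * g ≤ c₂ * g := mul_le_mul_of_nonneg_right h20 hg0.le
  linarith

open Classical in
/-- **from the account to the contradiction** -/
theorem sg_close {c₂ e : ℝ} (he : 0 < e) (h20 : 20 * e ≤ c₂) {B₀ : ℕ} (hB₀ : 2 ≤ B₀)
    {Cb Cs Cn : ℝ} (Cl r₀ P₁ : ℝ) (hCs : 0 ≤ Cs) (hCn : 0 ≤ Cn) :
    ∃ g₁ : ℕ, ∀ g : ℕ, g₁ ≤ g → ∀ {Ω : Type*} [Fintype Ω] {q : Ω → ℝ} (_ : IsProb q)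
      {δ η : Type*} (D : ℕ → Ω → δ) (_ : ∀ t, Det (D (t + 1)) (D t)) (Y : Ω → η) (T : ℕ)
      (Exc Neg Late NL NR Cut Neg₀ Big Small : ℕ → Ω → Prop)
      (_ : ∀ t a, Exc t a → NL t a ∨ NR t a ∨ Cut t a) (_ : ∀ t a, Neg t a → Late t a ∨ Neg₀ t a)
      (_ : #(univ.image (D T)) ≤ B₀ ^ (2 * g))
      (_ : c₂ * g - r₀ * (1 + log g) ≤ Hc q (D T) (fun ω => (D 0 ω, Y ω)))
      (_ : ∀ t < T, ∀ ω₀, 0 < q ω₀ →
        (∀ ω, 0 < q ω → D t ω = D t ω₀ → Y ω = Y ω₀ → Exc t ω ∨ Neg t ω) ∨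
        (∃ b, ∀ ω, 0 < q ω → D t ω = D t ω₀ → Y ω = Y ω₀ → D (t + 1) ω ≠ b → Neg t ω) ∨
        (∃ b b', (∀ ω, 0 < q ω → D t ω = D t ω₀ → Y ω = Y ω₀ →
            D (t + 1) ω = b ∨ D (t + 1) ω = b') ∧
          (∀ ω, 0 < q ω → D t ω = D t ω₀ → Y ω = Y ω₀ → D (t + 1) ω = b → Neg t ω ∨ Big t ω) ∧
          (∀ ω, 0 < q ω → D t ω = D t ω₀ → Y ω = Y ω₀ → D (t + 1) ω ≠ b →
            Neg t ω ∨ Small t ω)))
      (_ : ∀ ω, 0 < q ω → (#{t ∈ range T | Late t ω} : ℝ) ≤ P₁)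
      (_ : ∑ t ∈ range T, ∑ ω, q ω * (if Late t ω then
        sur q (D (t + 1)) (fun ω => (D t ω, Y ω)) ω else 0) ≤ Cl * (1 + log g))
      (_ : ∑ t ∈ range T, ∑ ω, q ω * (if NL t ω then
        sur q (D (t + 1)) (fun ω => (D t ω, Y ω)) ω else 0) ≤ e * g)
      (_ : ∑ t ∈ range T, ∑ ω, q ω * (if NR t ω then
        sur q (D (t + 1)) (fun ω => (D t ω, Y ω)) ω else 0) ≤ e * g)
      (_ : ∑ t ∈ range T, ∑ ω, q ω * (if Cut t ω then
        sur q (D (t + 1)) (fun ω => (D t ω, Y ω)) ω else 0) ≤ e * g)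
      (_ : ∑ t ∈ range T, PE q (Neg₀ t) ≤ Cn / g)
      (_ : ∀ ω, 0 < q ω → (#{t ∈ range T | Big t ω} : ℝ) ≤ Cb * (1 + g / log g))
      (_ : ∀ ω, 0 < q ω → (#{t ∈ range T | Small t ω} : ℝ) ≤ Cs * g), False := by
  obtain ⟨lam, hl0, hl1, g₁, h₁⟩ := sg_num (Cb := Cb) he h20 hB₀ Cl r₀ P₁ hCs hCn
  refine ⟨g₁, fun g hg => ?_⟩
  intro Ω _ q hq δ η D hD Y T Exc Neg Late NL NR Cut Neg₀ Big Small hExc hZ hK hG hA hLc hL hNL
    hNR hCut hNeg hBig hSmall
  obtain ⟨hg1, hd0, hd1, key⟩ := h₁ g hg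
  have hlog : 0 ≤ -log lam := by
    have := log_nonpos hl0.le (by linarith)
    linarith
  have hNd : ∑ t ∈ range T, PE q (Neg₀ t) ≤ (Cn + 1) / g :=
    hNeg.trans (div_le_div_of_nonneg_right (by linarith) (by linarith))
  have hneg := rare_sur hq D hD Y T (K := B₀ ^ (2 * g)) (by positivity) hK Neg₀ hd0 hd1 hNd
  have hacc := account hq D hD Y Exc Neg Big Small hl0 hl1 T hA
  have hsum := acc_sum hq (fun t => sur q (D (t + 1)) (fun ω => (D t ω, Y ω)))
    (fun t ω => sur_nonneg hq _ _ ω) hl0 hlog T Exc Late NL NR Neg Cut Neg₀ Big Small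
    hExc hZ hLc hBig hSmall
  exact key hG (hacc.trans hsum) hL hNL hNR hCut hneg hNd

end Vale.Agent.P065.H60
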