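import Vale.Agent.P065.H60.LineBud
import Vale.Agent.P065.H154.Frame

/-!
# P065: the line cells on the frame and their budget (helper60)

`yL` is the (plain) height of the line of a flag at the left end of its time cell. The line cells
have their own offset `θ` and are nested in the slope scale, for a fixed time cell.
-/

set_option autoImplicit false

open Finset Real

noncomputable section

namespace Vale.Agent.P065.H60

open Vale.Agent.P065.UB Vale.Agent.P065.Ent Vale.Agent.P065.H819 Vale.Agent.P065.H154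

/-! ## Definitions -/

section defs

variable {Ω : Type*} (F : Fr Ω) (ln : Ω → Pt)

/-- left end of the time cell of the level `v` -/
def xL (u : ℝ) (v : ℕ) (ω : Ω) : ℝ := (F.D u v ω : ℝ) / 2 ^ v - u

/-- height of the line at the left end of the time cell -/
def yL (u : ℝ) (v : ℕ) (ω : Ω) : ℝ := - ht (xL F u v ω) (ln ω)

/-- the height in units `2 ^ (-z)`, offset `θ` -/
def Lh (u θ : ℝ) (v : ℕ) (z : ℤ) (ω : Ω) : ℤ := ⌊(2 : ℝ) ^ z * (yL F ln u v ω + θ)⌋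

/-- **the line cell**: slope cell of the scale `k`, time cell of the level `v`, height in units
`2 ^ (- (v + k + e))` -/
def Lc (k₀ : ℤ) (a : Bool) (u θ : ℝ) (v : ℕ) (k e : ℤ) (ω : Ω) : ℤ × ℤ × ℤ :=
  (Sc k₀ a k (ln ω), F.D u v ω, Lh F ln u θ v (v + k + e) ω)

variable {F ln}

lemma floor_nest {z z' : ℤ} (h : z ≤ z') {y y' : ℝ}
    (hy : ⌊(2 : ℝ) ^ z' * y⌋ = ⌊(2 : ℝ) ^ z' * y'⌋) : ⌊(2 : ℝ) ^ z * y⌋ = ⌊(2 : ℝ) ^ z * y'⌋ := by
  obtain ⟨n, hn⟩ : ∃ n : ℕ, z' = z + n := ⟨(z' - z).toNat, by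
    rw [Int.toNat_of_nonneg (by omega)]; ring⟩
  subst hn
  have key : ∀ y : ℝ, ⌊(2 : ℝ) ^ z * y⌋ = ⌊(2 : ℝ) ^ (z + (n : ℤ)) * y⌋ / ((2 ^ n : ℕ) : ℤ) := by
    intro y
    have e : (2 : ℝ) ^ z * y = (2 : ℝ) ^ (z + (n : ℤ)) * y / ((2 ^ n : ℕ) : ℝ) := by
      rw [zpow_add₀ (by norm_num), zpow_natCast]
      push_cast
      field_simp
    rw [e, Int.floor_div_natCast]
  rw [key y, key y', hy]

lemma Lh_nest {u θ : ℝ} {v : ℕ} {z z' : ℤ} (h : z ≤ z') :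
    Det (Lh F ln u θ v z') (Lh F ln u θ v z) := fun _ _ hy => floor_nest h hy

/-- the line cells are nested -/
lemma Lc_nest {k₀ : ℤ} {a : Bool} {u θ : ℝ} {v : ℕ} {k k' e e' : ℤ} (hk : k ≤ k')
    (he : k + e ≤ k' + e') : Det (Lc F ln k₀ a u θ v k' e') (Lc F ln k₀ a u θ v k e) := by
  intro ω ω' h
  unfold Lc at h ⊢
  simp only [Prod.mk.injEq] at h ⊢
  exact ⟨Sc_nest hk h.1, h.2.1, Lh_nest (by omega) _ _ h.2.2⟩

lemma Lc_D {k₀ : ℤ} {a : Bool} {u θ : ℝ} {v : ℕ} {k e : ℤ} :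
    Det (Lc F ln k₀ a u θ v k e) (F.D u v) := by
  intro ω ω' h
  unfold Lc at h
  simp only [Prod.mk.injEq] at h
  exact h.2.1

/-- the label of two blocks -/
def lbk (ln : Ω → Pt) (k₀ : ℤ) (a : Bool) (k : ℤ) (PP : ℕ) (b₀ b₁ : ℕ) (ω : Ω) : Option Bool :=
  if bk k₀ a k PP (ln ω) = b₀ then some false
  else if bk k₀ a k PP (ln ω) = b₁ then some true
  else none

lemma lbk_eq {p : Prm} (c : p.Col) : lb ln p c =
    lbk ln p.k₀ (Prm.sy c.1) (Prm.sc c.1) p.PP (Prm.b0 c.1) (Prm.b1 c.1) := rfl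

/-- the labels are functions of the slope cells `PP` scales below -/
lemma det_lbk {k₀ : ℤ} {a : Bool} {k k' : ℤ} {PP b₀ b₁ : ℕ} (h : k + PP ≤ k') {ω ω' : Ω}
    (hS : Sc k₀ a k' (ln ω) = Sc k₀ a k' (ln ω')) :
    lbk ln k₀ a k PP b₀ b₁ ω = lbk ln k₀ a k PP b₀ b₁ ω' := by
  have h1 : Sc k₀ a (k + PP) (ln ω) = Sc k₀ a (k + PP) (ln ω') := Sc_nest h hS
  have h2 : Sc k₀ a k (ln ω) = Sc k₀ a k (ln ω') := Sc_nest (by omega) hS
  have h3 : bk k₀ a k PP (ln ω) = bk k₀ a k PP (ln ω') := by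
    have e1 := Sc_add k₀ a k PP (ln ω)
    have e2 := Sc_add k₀ a k PP (ln ω')
    rw [h2] at e1
    linarith
  unfold lbk
  rw [h3]

/-! ### Normalised heights -/

/-- the difference between the plain height with the offset `θ` and the height of the column, in
units of the level `v`; a function of slope cell and time cell -/
def dlt {p : Prm} (c : p.Col) (u θ : ℝ) (v : ℕ) (S d : ℤ) : ℝ :=
  2 ^ v * (((d : ℝ) / 2 ^ v - u) * (os p.k₀ (Prm.sy c.1) * 2 ^ Prm.sc c.1 + S)) -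
    2 ^ v * ((c.2 : ℕ) / (3 * 2 ^ Prm.ex c.1)) + 2 ^ ((v : ℤ) + Prm.sc c.1) * θ

/-- the height of the column at the left end of the time cell -/
lemma cl_eq {p : Prm} (c : p.Col) (u θ : ℝ) (v : ℕ) (ω : Ω) :
    2 ^ v * Prm.h c (xL F u v ω) (ln ω) =
      2 ^ ((v : ℤ) + Prm.sc c.1) * (yL F ln u v ω + θ) -
        dlt c u θ v (Prm.S c.1 (ln ω)) (F.D u v ω) := by
  have h1 := hl_eq p.k₀ (Prm.sy c.1) (Prm.sc c.1) (xL F u v ω) (ln ω)
  have h2 : Prm.h c (xL F u v ω) (ln ω) =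
      hl p.k₀ (Prm.sy c.1) (Prm.sc c.1) (xL F u v ω) (ln ω) + (c.2 : ℕ) / (3 * 2 ^ Prm.ex c.1) := rfl
  have h3 : Prm.S c.1 (ln ω) = Sc p.k₀ (Prm.sy c.1) (Prm.sc c.1) (ln ω) := rfl
  have h4 : xL F u v ω = (F.D u v ω : ℝ) / 2 ^ v - u := rfl
  have h5 : yL F ln u v ω = - ht (xL F u v ω) (ln ω) := rfl
  unfold dlt
  rw [h2, h1, h3, ← h4, h5, zpow_add₀ (by norm_num : (2 : ℝ) ≠ 0), zpow_natCast]
  ring

/-- 819's line height -/
lemma cv_eq {p : Prm} (c : p.Col) (u : ℝ) (v : ℕ) (ω : Ω) :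
    cv (fun ω => F.P.x ω + u) (fun ω => Prm.h c (F.P.x ω) (ln ω)) (fun ω => Prm.f c.1 (ln ω)) v ω =
      2 ^ v * Prm.h c (xL F u v ω) (ln ω) := by
  have h1 := Prm.h_sub c (F.P.x ω) (xL F u v ω) (ln ω)
  have h2 : (2 : ℝ) ^ v * (xL F u v ω - F.P.x ω) =
      - Int.fract (Tv (fun ω => F.P.x ω + u) v ω) := by
    have h3 : (F.D u v ω : ℝ) + Int.fract ((2 : ℝ) ^ v * (F.P.x ω + u)) =
        2 ^ v * (F.P.x ω + u) := Int.floor_add_fract _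
    unfold Tv xL
    have h4 : (2 : ℝ) ^ v * ((F.D u v ω : ℝ) / 2 ^ v - u - F.P.x ω) =
        F.D u v ω - 2 ^ v * (F.P.x ω + u) := by
      have : (0 : ℝ) < 2 ^ v := by positivity
      field_simp
      ring
    rw [h4]
    linarith
  unfold cv
  have h5 : Prm.h c (xL F u v ω) (ln ω) =
      Prm.h c (F.P.x ω) (ln ω) + (xL F u v ω - F.P.x ω) * Prm.f c.1 (ln ω) := by linarith
  rw [h5]
  have h6 : (2 : ℝ) ^ v * (Prm.h c (F.P.x ω) (ln ω) +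
      (xL F u v ω - F.P.x ω) * Prm.f c.1 (ln ω)) = 2 ^ v * Prm.h c (F.P.x ω) (ln ω) +
      (2 ^ v * (xL F u v ω - F.P.x ω)) * Prm.f c.1 (ln ω) := by ring
  rw [h6, h2]
  ring

end defs

/-! ## The budget -/

variable {Ω : Type*} [Fintype Ω] {F : Fr Ω} {ln : Ω → Pt} {p : Prm} {μ : Ω → ℝ} {ξ α : Type*}

/-- all the slope scales, one level -/
theorem line_scales (hμ : IsProb μ) (a : Bool) (b₀ b₁ : ℕ) (u θ : ℝ) (v : ℕ) (e e' : ℤ) (m : ℕ)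
    (hm1 : p.PP ≤ m) (hm2 : e' ≤ m + e) (X : Ω → ξ) (A : Ω → α) :
    ∑ j ∈ range (p.K + 1), I μ X
      (fun ω => (lbk ln p.k₀ a (p.k₀ + j) p.PP b₀ b₁ ω,
        Lh F ln u θ v (v + (p.k₀ + j) + e') ω))
      (fun ω => (Lc F ln p.k₀ a u θ v (p.k₀ + j) e ω, A ω)) ≤
    m * Hc μ X (fun ω => (F.D u v ω, A ω)) := by
  refine (sum_I_scales hμ X (fun (j : ℕ) ω => (Lc F ln p.k₀ a u θ v (p.k₀ + j) e ω, A ω)) ?_
    (fun (j : ℕ) ω => (lbk ln p.k₀ a (p.k₀ + j) p.PP b₀ b₁ ω,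
        Lh F ln u θ v (v + (p.k₀ + j) + e') ω)) m ?_ (p.K + 1)).trans ?_
  · intro j
    exact ((det_fst _ _).trans (Lc_nest (by push_cast; omega) (by push_cast; omega))).pair
      (det_snd _ _)
  · intro j ω ω' h
    simp only [Prod.mk.injEq] at h ⊢
    have h1 := h.1
    unfold Lc at h1
    simp only [Prod.mk.injEq] at h1
    refine ⟨det_lbk (by push_cast; omega) h1.1, ?_⟩
    exact Lh_nest (by push_cast; omega) _ _ h1.2.2
  · refine mul_le_mul_of_nonneg_left ?_ (Nat.cast_nonneg m)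
    exact Hc_anti hμ X (((det_fst _ _).trans Lc_D).pair (det_snd _ _))

/-- **the line budget on the frame**: all columns, the levels of `V` -/
theorem line_budget (hμ : IsProb μ) (u θ : ℝ) (e e' : ℤ) (m : ℕ) (hm1 : p.PP ≤ m)
    (hm2 : e' ≤ m + e) (V : Finset ℕ) (X : ℕ → Ω → ξ) (A : ℕ → Ω → α) :
    ∑ c : p.Col, ∑ v ∈ V, I μ (X v)
      (fun ω => (lb ln p c ω, Lh F ln u θ v (v + Prm.sc c.1 + e') ω))
      (fun ω => (Lc F ln p.k₀ (Prm.sy c.1) u θ v (Prm.sc c.1) e ω, A v ω)) ≤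
    2 * 4 ^ p.PP * p.nT * m * ∑ v ∈ V, Hc μ (X v) (fun ω => (F.D u v ω, A v ω)) := by
  set G : Bool → ℕ → ℕ → ℕ → ℕ → ℝ := fun a j b₀ b₁ v => I μ (X v)
      (fun ω => (lbk ln p.k₀ a (p.k₀ + j) p.PP b₀ b₁ ω,
        Lh F ln u θ v (v + (p.k₀ + j) + e') ω))
      (fun ω => (Lc F ln p.k₀ a u θ v (p.k₀ + j) e ω, A v ω)) with hG
  have e1 : ∀ c : p.Col, ∑ v ∈ V, I μ (X v)
      (fun ω => (lb ln p c ω, Lh F ln u θ v (v + Prm.sc c.1 + e') ω))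
      (fun ω => (Lc F ln p.k₀ (Prm.sy c.1) u θ v (Prm.sc c.1) e ω, A v ω)) =
      ∑ v ∈ V, G c.1.1 c.1.2.1 c.1.2.2.1 c.1.2.2.2 v := fun c => rfl
  rw [sum_congr rfl fun c _ => e1 c, sum_comm, mul_sum]
  refine sum_le_sum fun v _ => ?_
  set h := Hc μ (X v) (fun ω => (F.D u v ω, A v ω)) with hh
  have e2 : ∑ c : p.Col, G c.1.1 c.1.2.1 c.1.2.2.1 c.1.2.2.2 v =
      ∑ a : Bool, ∑ b₀ : Fin (2 ^ p.PP), ∑ b₁ : Fin (2 ^ p.PP), ∑ _i : Fin p.nT,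
        ∑ j : Fin (p.K + 1), G a j b₀ b₁ v := by
    rw [Fintype.sum_prod_type, Fintype.sum_prod_type]
    refine sum_congr rfl fun a _ => ?_
    rw [Fintype.sum_prod_type, sum_comm, Fintype.sum_prod_type]
    refine sum_congr rfl fun b₀ _ => sum_congr rfl fun b₁ _ => ?_
    rw [sum_comm]
  rw [e2]
  have e3 : ∀ (a : Bool) (b₀ b₁ : ℕ), ∑ j : Fin (p.K + 1), G a j b₀ b₁ v ≤ m * h := by
    intro a b₀ b₁
    rw [Fin.sum_univ_eq_sum_range (fun j => G a j b₀ b₁ v) (p.K + 1)]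
    exact line_scales hμ a b₀ b₁ u θ v e e' m hm1 hm2 (X v) (A v)
  calc ∑ a : Bool, ∑ b₀ : Fin (2 ^ p.PP), ∑ b₁ : Fin (2 ^ p.PP), ∑ _i : Fin p.nT,
        ∑ j : Fin (p.K + 1), G a j b₀ b₁ v
      ≤ ∑ _a : Bool, ∑ _b₀ : Fin (2 ^ p.PP), ∑ _b₁ : Fin (2 ^ p.PP), ∑ _i : Fin p.nT,
        (m * h : ℝ) := sum_le_sum fun a _ => sum_le_sum fun b₀ _ => sum_le_sum fun b₁ _ =>
          sum_le_sum fun i _ => e3 a b₀ b₁
    _ = 2 * 4 ^ p.PP * p.nT * m * h := by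
        simp only [sum_const, card_univ, Fintype.card_fin, Fintype.card_bool, nsmul_eq_mul]
        push_cast
        rw [show (4 : ℝ) ^ p.PP = 2 ^ p.PP * 2 ^ p.PP by rw [← mul_pow]; norm_num]
        ring

/-- telescoping over the levels, all the variables are functions of `x` -/
theorem sum_levels_le (hμ : IsProb μ) {τ : Type*} {χ : Type*} (T : ℕ → Ω → τ) (x : Ω → χ)
    (h : ∀ v, Det (T (v + 1)) (T v)) (hx : ∀ v, Det x (T v)) (dX n : ℕ) :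
    ∑ v ∈ range n, Hc μ (T (v + dX)) (T v) ≤ dX * H μ x :=
  (sum_Hc_levels hμ T h dX n).trans (mul_le_mul_of_nonneg_left
    ((Hc_le_H hμ _ _).trans (H_mono hμ (hx _))) (Nat.cast_nonneg dX))

end Vale.Agent.P065.H60
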