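import Vale.Agent.P065.H154.Frame

/-!
# P065: the frame of nested pieces with disjoint bottom intervals (helper60)

`Fr.ofItv I q hq`: the centre of the bottom interval `(lo, hi)` is the dyadic point of step
`2 ^ (-(T + q))` next to the middle, `2 ^ (-T) < hi - lo ≤ 2 * 2 ^ (-T)`, the frozen scale is
`T' = T + q`, `2 ≤ q`.
-/

set_option autoImplicit false

namespace Vale.Agent.P065.H60

open Finset Vale.Agent.P065.H268

namespace Itv

section pts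

variable {Ω : Type*} (I : Itv Ω) (q : ℕ)

/-- the frozen scale -/
noncomputable def T' (ω : Ω) : ℕ := I.T ω + q

/-- the dyadic centre of the bottom interval -/
noncomputable def xc (ω : Ω) : ℝ := (⌊2 ^ I.T' q ω * ((I.lo ω + I.hi ω) / 2)⌋ : ℝ) / 2 ^ I.T' q ω

theorem two_pow_mul_xc (ω : Ω) :
    2 ^ I.T' q ω * I.xc q ω = (⌊2 ^ I.T' q ω * ((I.lo ω + I.hi ω) / 2)⌋ : ℝ) := by
  unfold xc
  rw [mul_div_cancel₀]
  positivity

theorem T'_congr {ω ω' : Ω} (h : I.P.W I.n ω = I.P.W I.n ω') : I.T' q ω = I.T' q ω' := by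
  unfold T'
  rw [I.T_congr h]

theorem xc_congr {ω ω' : Ω} (h : I.P.W I.n ω = I.P.W I.n ω') : I.xc q ω = I.xc q ω' := by
  unfold xc
  rw [I.T'_congr q h, I.lo_congr _ _ h, I.hi_congr _ _ h]

theorem two_pow_q_lt (ω : Ω) : (2 : ℝ) ^ q < 2 ^ I.T' q ω * (I.hi ω - I.lo ω) := by
  have h1 := I.one_lt_T ω
  have h2 : (0 : ℝ) < 2 ^ q := by positivity
  unfold T'
  rw [pow_add]
  nlinarith

theorem le_two_pow_q (ω : Ω) : 2 ^ I.T' q ω * (I.hi ω - I.lo ω) ≤ 2 * 2 ^ q := by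
  have h1 := I.T_le_two ω
  have h2 : (0 : ℝ) < 2 ^ q := by positivity
  unfold T'
  rw [pow_add]
  nlinarith

/-- the centre is at most the middle -/
theorem xc_le_mid (ω : Ω) : I.xc q ω ≤ (I.lo ω + I.hi ω) / 2 := by
  have h1 := Int.floor_le (2 ^ I.T' q ω * ((I.lo ω + I.hi ω) / 2))
  have h2 : (0 : ℝ) < 2 ^ I.T' q ω := by positivity
  unfold xc
  rw [div_le_iff₀ h2]
  linarith

/-- the centre is next to the middle -/
theorem mid_lt_xc (ω : Ω) : 2 ^ I.T' q ω * ((I.lo ω + I.hi ω) / 2) < 2 ^ I.T' q ω * I.xc q ω + 1 := by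
  rw [I.two_pow_mul_xc]
  exact Int.lt_floor_add_one _

/-- distance to the left end -/
theorem lo_add_le_xc (hq : 1 ≤ q) (ω : Ω) :
    (2 : ℝ) ^ (q - 1) - 1 < 2 ^ I.T' q ω * (I.xc q ω - I.lo ω) := by
  have h1 := I.mid_lt_xc q ω
  have h2 := I.two_pow_q_lt q ω
  have e : (2 : ℝ) ^ q = 2 ^ (q - 1) * 2 := by
    rw [← pow_succ]
    congr 1
    omega
  rw [e] at h2
  nlinarith

/-- distance to the right end -/
theorem xc_add_le_hi (hq : 1 ≤ q) (ω : Ω) :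
    (2 : ℝ) ^ (q - 1) < 2 ^ I.T' q ω * (I.hi ω - I.xc q ω) := by
  have h1 := I.xc_le_mid q ω
  have h2 := I.two_pow_q_lt q ω
  have e : (2 : ℝ) ^ q = 2 ^ (q - 1) * 2 := by
    rw [← pow_succ]
    congr 1
    omega
  have h3 : (0 : ℝ) < 2 ^ I.T' q ω := by positivity
  rw [e] at h2
  nlinarith

theorem one_lt_lo (hq : 2 ≤ q) (ω : Ω) : 1 < 2 ^ I.T' q ω * (I.xc q ω - I.lo ω) := by
  have h1 := I.lo_add_le_xc q (by omega) ω
  have h2 : (2 : ℝ) ^ 1 ≤ 2 ^ (q - 1) := pow_le_pow_right₀ (by norm_num) (by omega)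
  linarith

theorem one_lt_hi (hq : 2 ≤ q) (ω : Ω) : 1 < 2 ^ I.T' q ω * (I.hi ω - I.xc q ω) := by
  have h1 := I.xc_add_le_hi q (by omega) ω
  have h2 : (2 : ℝ) ^ 1 ≤ 2 ^ (q - 1) := pow_le_pow_right₀ (by norm_num) (by omega)
  linarith

theorem lo_lt_xc (hq : 2 ≤ q) (ω : Ω) : I.lo ω < I.xc q ω := by
  have h1 := I.one_lt_lo q hq ω
  have h2 : (0 : ℝ) < 2 ^ I.T' q ω := by positivity
  nlinarith

theorem xc_lt_hi (hq : 2 ≤ q) (ω : Ω) : I.xc q ω < I.hi ω := by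
  have h1 := I.one_lt_hi q hq ω
  have h2 : (0 : ℝ) < 2 ^ I.T' q ω := by positivity
  nlinarith

/-- every point of the interval is close to the centre -/
theorem abs_xc_sub_le (ω : Ω) {y : ℝ} (h0 : I.lo ω ≤ y) (h1 : y ≤ I.hi ω) :
    2 ^ I.T' q ω * |I.xc q ω - y| ≤ 2 ^ (q + 1) := by
  have h2 := I.le_two_pow_q q ω
  have h3 := I.xc_le_mid q ω
  have h4 := I.mid_lt_xc q ω
  have h5 : (0 : ℝ) < 2 ^ I.T' q ω := by positivity
  have h6 : (1 : ℝ) ≤ 2 ^ q := one_le_pow₀ (by norm_num)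
  rw [pow_succ]
  rcases le_total 0 (I.xc q ω - y) with h | h
  · rw [abs_of_nonneg h]
    nlinarith
  · rw [abs_of_nonpos h]
    nlinarith

/-- two different pieces -/
theorem xc_lt_of_W_lt (hq : 2 ≤ q) {ω ω' : Ω} (h : I.P.W I.n ω < I.P.W I.n ω') :
    1 < 2 ^ I.T' q ω * (I.xc q ω' - I.xc q ω) ∧ 1 < 2 ^ I.T' q ω' * (I.xc q ω' - I.xc q ω) := by
  have h1 := I.hi_le_lo ω ω' h
  have h2 := I.one_lt_hi q hq ω
  have h3 := I.one_lt_lo q hq ω'
  have h4 := I.xc_lt_hi q hq ω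
  have h5 := I.lo_lt_xc q hq ω'
  have h6 : (0 : ℝ) < 2 ^ I.T' q ω := by positivity
  have h7 : (0 : ℝ) < 2 ^ I.T' q ω' := by positivity
  constructor <;> nlinarith

/-- the centre determines the bottom piece -/
theorem W_eq_of_xc_eq (hq : 2 ≤ q) {ω ω' : Ω} (h : I.xc q ω = I.xc q ω') :
    I.P.W I.n ω = I.P.W I.n ω' := by
  rcases lt_trichotomy (I.P.W I.n ω) (I.P.W I.n ω') with h1 | h1 | h1
  · have h2 := (I.xc_lt_of_W_lt q hq h1).1
    rw [h, sub_self, mul_zero] at h2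
    linarith
  · exact h1
  · have h2 := (I.xc_lt_of_W_lt q hq h1).1
    rw [h, sub_self, mul_zero] at h2
    linarith

theorem W_le_of_xc_le (hq : 2 ≤ q) {ω ω' : Ω} (h : I.xc q ω ≤ I.xc q ω') :
    I.P.W I.n ω ≤ I.P.W I.n ω' := by
  by_contra hc
  push Not at hc
  have h2 := (I.xc_lt_of_W_lt q hq hc).1
  have h3 : (0 : ℝ) < 2 ^ I.T' q ω' := by positivity
  nlinarith

/-- two different centres are separated -/
theorem xc_sep (hq : 2 ≤ q) {ω ω' : Ω} (h : I.xc q ω ≠ I.xc q ω') :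
    1 ≤ 2 ^ I.T' q ω * |I.xc q ω - I.xc q ω'| := by
  rcases lt_trichotomy (I.P.W I.n ω) (I.P.W I.n ω') with h1 | h1 | h1
  · have h2 := (I.xc_lt_of_W_lt q hq h1).1
    have h3 := neg_le_abs (I.xc q ω - I.xc q ω')
    have h4 : (0 : ℝ) < 2 ^ I.T' q ω := by positivity
    nlinarith
  · exact absurd (I.xc_congr q h1) h
  · have h2 := (I.xc_lt_of_W_lt q hq h1).2
    have h3 := le_abs_self (I.xc q ω - I.xc q ω')
    have h4 : (0 : ℝ) < 2 ^ I.T' q ω := by positivity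
    nlinarith

theorem xc_pos (hq : 2 ≤ q) (ω : Ω) : 0 < I.xc q ω := (I.lo_nonneg ω).trans_lt (I.lo_lt_xc q hq ω)

theorem xc_lt_one (hq : 2 ≤ q) (ω : Ω) : I.xc q ω < 1 := (I.xc_lt_hi q hq ω).trans_le (I.hi_le_one ω)

end pts

section frame

variable {Ω : Type*} [Fintype Ω] (I : Itv Ω) (q : ℕ)

theorem T'_le_R (ω : Ω) : I.T' q ω ≤ I.R q := by
  unfold T' R
  have := le_sup (f := I.T) (mem_univ ω)
  omega

theorem xc_dyadicR (ω : Ω) {R' : ℕ} (hR : I.R q ≤ R') : ∃ z : ℤ, 2 ^ R' * I.xc q ω = z := by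
  have h := (I.T'_le_R q ω).trans hR
  refine ⟨2 ^ (R' - I.T' q ω) * ⌊2 ^ I.T' q ω * ((I.lo ω + I.hi ω) / 2)⌋, ?_⟩
  have e : (2 : ℝ) ^ R' = 2 ^ (R' - I.T' q ω) * 2 ^ I.T' q ω := by
    rw [← pow_add, Nat.sub_add_cancel h]
  rw [e, mul_assoc, I.two_pow_mul_xc]
  push_cast
  rfl

theorem xc_sepR {ω ω' : Ω} (h : I.xc q ω < I.xc q ω') :
    I.xc q ω + 1 / 2 ^ I.R q ≤ I.xc q ω' := by
  obtain ⟨z, hz⟩ := I.xc_dyadicR q ω le_rfl
  obtain ⟨z', hz'⟩ := I.xc_dyadicR q ω' le_rfl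
  have h2 : (0 : ℝ) < 2 ^ I.R q := by positivity
  have h1 : (z : ℝ) < z' := by
    rw [← hz, ← hz']
    exact mul_lt_mul_of_pos_left h h2
  have h3 : (z : ℝ) + 1 ≤ z' := by
    have : z < z' := by exact_mod_cast h1
    exact_mod_cast this
  rw [← hz, ← hz'] at h3
  have e : I.xc q ω + 1 / 2 ^ I.R q = (2 ^ I.R q * I.xc q ω + 1) / 2 ^ I.R q := by
    field_simp
  rw [e, div_le_iff₀ h2]
  linarith

theorem le_xc (hq : 2 ≤ q) (ω : Ω) : 1 / 2 ^ I.R q ≤ I.xc q ω := by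
  obtain ⟨z, hz⟩ := I.xc_dyadicR q ω le_rfl
  have h0 := I.xc_pos q hq ω
  have h2 : (0 : ℝ) < 2 ^ I.R q := by positivity
  have h1 : (0 : ℝ) < z := by
    rw [← hz]
    positivity
  have h3 : (1 : ℝ) ≤ z := by
    have : (0 : ℤ) < z := by exact_mod_cast h1
    exact_mod_cast this
  rw [div_le_iff₀ h2, mul_comm, hz]
  exact h3

/-- the pieces with dyadic centres -/
noncomputable def cen (hq : 2 ≤ q) : Pcs Ω where
  x := I.xc q
  W := fun j ω => I.P.W (min j I.n) ω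
  δ := 1 / 2 ^ I.R q
  T := I.R q + 2
  mono := fun j ω ω' h => I.W_mono_of_le (min_le_right j I.n) (I.W_le_of_xc_le q hq h)
  nest := fun j ω ω' h => I.P.nest_le (by omega) h
  δ_pos := by positivity
  sep := fun ω ω' h => I.xc_sepR q h
  diam := by
    intro a b
    have h1 := I.le_xc q hq a
    have h2 := I.xc_lt_one q hq b
    linarith
  bot := by
    rw [pow_add]
    have h2 : (0 : ℝ) < 2 ^ I.R q := by positivity
    field_simp
    norm_num

end frame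

end Itv

end Vale.Agent.P065.H60

namespace Vale.Agent.P065.H154

open Vale.Agent.P065.H60 Vale.Agent.P065.H268

namespace Fr

/-- **the frame of nested pieces with disjoint bottom intervals** -/
noncomputable def ofItv {Ω : Type*} [Fintype Ω] (I : Itv Ω) (q : ℕ) (hq : 2 ≤ q) : Fr Ω where
  P := I.cen q hq
  n := I.n
  T' := I.T' q
  Tm := I.R q
  T'_le := I.T'_le_R q
  Tm_le := Nat.le_add_right _ _
  dyadic := fun ω => ⟨_, I.two_pow_mul_xc q ω⟩
  sep := fun ω ω' h => I.xc_sep q hq h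
  xW := fun ω ω' h => I.xc_congr q (by simpa [Itv.cen] using h)
  T'x := fun ω ω' h => I.T'_congr q (I.W_eq_of_xc_eq q hq h)

section ofItv

variable {Ω : Type*} [Fintype Ω] (I : Itv Ω) {q : ℕ} (hq : 2 ≤ q)

@[simp] theorem ofItv_x (ω : Ω) : (ofItv I q hq).P.x ω = I.xc q ω := rfl

@[simp] theorem ofItv_n : (ofItv I q hq).n = I.n := rfl

@[simp] theorem ofItv_T' (ω : Ω) : (ofItv I q hq).T' ω = I.T ω + q := rfl

@[simp] theorem ofItv_Tm : (ofItv I q hq).Tm = I.R q := rfl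

@[simp] theorem ofItv_T : (ofItv I q hq).P.T = I.R q + 2 := rfl

theorem ofItv_δ : (ofItv I q hq).P.δ = 1 / 2 ^ I.R q := rfl

theorem ofItv_W {j : ℕ} (hj : j ≤ I.n) (ω : Ω) : (ofItv I q hq).P.W j ω = I.P.W j ω := by
  show I.P.W (min j I.n) ω = I.P.W j ω
  rw [min_eq_left hj]

theorem ofItv_Wn (ω : Ω) : (ofItv I q hq).P.W I.n ω = I.P.W I.n ω := ofItv_W I hq le_rfl ω

theorem ofItv_W_of_le {j : ℕ} (hj : I.n ≤ j) (ω : Ω) :
    (ofItv I q hq).P.W j ω = I.P.W I.n ω := by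
  show I.P.W (min j I.n) ω = I.P.W I.n ω
  rw [min_eq_right hj]

/-- if the labels are constant after the last level then they are the old ones -/
theorem ofItv_W_eq (hb : ∀ j, I.n ≤ j → ∀ ω, I.P.W j ω = I.P.W I.n ω) :
    (ofItv I q hq).P.W = I.P.W := by
  funext j ω
  rcases le_total j I.n with h | h
  · exact ofItv_W I hq h ω
  · rw [ofItv_W_of_le I hq h, hb j h]

/-- the centre determines the bottom piece -/
theorem ofItv_xW_iff (ω ω' : Ω) :
    (ofItv I q hq).P.x ω = (ofItv I q hq).P.x ω' ↔ I.P.W I.n ω = I.P.W I.n ω' :=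
  ⟨fun h => I.W_eq_of_xc_eq q hq h, fun h => I.xc_congr q h⟩

theorem ofItv_lo_lt (ω : Ω) : I.lo ω < (ofItv I q hq).P.x ω := I.lo_lt_xc q hq ω

theorem ofItv_lt_hi (ω : Ω) : (ofItv I q hq).P.x ω < I.hi ω := I.xc_lt_hi q hq ω

/-- every point of the bottom interval is close to the centre -/
theorem ofItv_near (ω : Ω) {y : ℝ} (h0 : I.lo ω ≤ y) (h1 : y ≤ I.hi ω) :
    |(ofItv I q hq).P.x ω - y| ≤ 2 ^ (q + 1) / 2 ^ (ofItv I q hq).T' ω := by
  have h := I.abs_xc_sub_le q ω h0 h1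
  rw [le_div_iff₀ (by positivity), mul_comm]
  exact h

end ofItv

section tm

variable {Ω : Type*} [Fintype Ω] (F : Fr Ω)

/-- the scale of a piece with two centres is at most the frozen scale plus two -/
theorem tm_le_of_ne {j : ℕ} {ω ω' : Ω} (h : F.P.W j ω = F.P.W j ω') (hx : F.P.x ω ≠ F.P.x ω') :
    F.P.tm j ω ≤ F.T' ω + 2 := by
  apply F.P.tm_le
  have h1 := F.sep ω ω' hx
  have h2 : |F.P.x ω - F.P.x ω'| ≤ F.P.len j ω := by
    have h3 := F.P.sub_le_len (j := j) (ω := ω) (a := ω) (b := ω') rfl h.symm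
    have h4 := F.P.sub_le_len (j := j) (ω := ω) (a := ω') (b := ω) h.symm rfl
    have h5 := F.P.δ_pos
    rw [abs_le]
    constructor <;> linarith
  have h3 : (0 : ℝ) < 2 ^ F.T' ω := by positivity
  rw [pow_add]
  nlinarith

/-- the scale of a piece with one centre -/
theorem len_eq_of_eq {j : ℕ} {ω : Ω} (h : ∀ ω', F.P.W j ω' = F.P.W j ω → F.P.x ω' = F.P.x ω) :
    F.P.len j ω = F.P.δ := by
  obtain ⟨a, ha, ha'⟩ := F.P.exists_hi j ω
  obtain ⟨b, hb, hb'⟩ := F.P.exists_lo j ω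
  unfold Pcs.len
  rw [← ha', ← hb', h a ha, h b hb]
  ring

theorem len_bot (ω : Ω) : F.P.len F.n ω = F.P.δ := F.len_eq_of_eq fun _ h => F.xW _ _ h

/-- the scale of the bottom piece of the frame of an `Itv` -/
theorem ofItv_tm (I : Itv Ω) {q : ℕ} (hq : 2 ≤ q) {j : ℕ} {ω : Ω}
    (h : ∀ ω', (ofItv I q hq).P.W j ω' = (ofItv I q hq).P.W j ω →
      (ofItv I q hq).P.x ω' = (ofItv I q hq).P.x ω) :
    (ofItv I q hq).P.tm j ω = I.R q + 2 := by
  have hl := (ofItv I q hq).len_eq_of_eq h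
  rw [ofItv_δ] at hl
  have h0 : (0 : ℝ) < 2 ^ I.R q := by positivity
  apply le_antisymm
  · apply (ofItv I q hq).P.tm_le
    rw [hl, pow_add]
    field_simp
    norm_num
  · by_contra hc
    push Not at hc
    have h1 := (ofItv I q hq).P.tm_spec j ω
    rw [hl] at h1
    have h2 : (2 : ℝ) ^ (ofItv I q hq).P.tm j ω ≤ 2 ^ (I.R q + 1) :=
      pow_le_pow_right₀ (by norm_num) (by omega)
    rw [mul_one_div, le_div_iff₀ h0] at h1
    rw [pow_succ] at h2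
    linarith

theorem ofItv_tm_bot (I : Itv Ω) {q : ℕ} (hq : 2 ≤ q) (ω : Ω) :
    (ofItv I q hq).P.tm I.n ω = I.R q + 2 :=
  ofItv_tm I hq fun _ h => (ofItv I q hq).xW _ _ h

/-- a piece with a scale below the last one has two centres, and its scale is at most `T' + 2` -/
theorem ofItv_tm_le (I : Itv Ω) {q : ℕ} (hq : 2 ≤ q) {j : ℕ} {ω : Ω}
    (h : (ofItv I q hq).P.tm j ω < I.R q + 2) :
    (ofItv I q hq).P.tm j ω ≤ (ofItv I q hq).T' ω + 2 := by
  by_cases hx : ∀ ω', (ofItv I q hq).P.W j ω' = (ofItv I q hq).P.W j ω →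
      (ofItv I q hq).P.x ω' = (ofItv I q hq).P.x ω
  · rw [ofItv_tm I hq hx] at h
    exact absurd h (lt_irrefl _)
  · push Not at hx
    obtain ⟨ω', h1, h2⟩ := hx
    exact (ofItv I q hq).tm_le_of_ne h1.symm (Ne.symm h2)

end tm

end Fr

end Vale.Agent.P065.H154
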