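import Vale.Agent.P065.H819.FairBox

/-!
# P065: the budget of the lines, abstract part (helper60)

`sum_gk_I`: a mutual information is a sum of terms `gk`. `sum_I_scales`, `sum_Hc_levels`: telescoping
with a step. `sum_rows_window`: the entropy of the rows in windows of levels.
-/

set_option autoImplicit false

open Finset Real

noncomputable section

namespace Vale.Agent.P065.H60

open Vale.Agent.P065.Ent Vale.Agent.P065.H819

variable {Ω : Type*} [Fintype Ω] {α β γ δ : Type*} {μ : Ω → ℝ}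

/-! ## Telescoping with a step -/

lemma sum_step_le {a : ℕ → ℝ} (ha : ∀ j, a (j + 1) ≤ a j) (ha0 : ∀ j, 0 ≤ a j) (m n : ℕ) :
    ∑ j ∈ range n, (a j - a (j + m)) ≤ m * a 0 := by
  have hle : ∀ j, a j ≤ a 0 := by
    intro j
    induction j with
    | zero => exact le_rfl
    | succ j ih => exact (ha j).trans ih
  induction m with
  | zero => simp
  | succ m ih =>
    have h1 : ∑ j ∈ range n, (a j - a (j + (m + 1))) =
        ∑ j ∈ range n, (a j - a (j + m)) + ∑ j ∈ range n, (a (j + m) - a (j + 1 + m)) := by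
      rw [← sum_add_distrib]
      refine sum_congr rfl fun j _ => ?_
      have : j + (m + 1) = j + 1 + m := by omega
      rw [this]; ring
    have h2 : ∑ j ∈ range n, (a (j + m) - a (j + 1 + m)) = a (0 + m) - a (n + m) :=
      sum_range_sub' (fun j => a (j + m)) n
    have h3 := hle (0 + m)
    have h4 := ha0 (n + m)
    push_cast
    linarith

lemma sum_step_ge {a : ℕ → ℝ} (ha : ∀ j, a j ≤ a (j + 1)) (m n : ℕ) :
    ∑ j ∈ range n, (a (j + m) - a j) ≤ m * (a (n + m) - a 0) := by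
  have hmono : Monotone a := monotone_nat_of_le_succ ha
  have key : ∀ m' ≤ m, ∑ j ∈ range n, (a (j + m') - a j) ≤ m' * (a (n + m) - a 0) := by
    intro m'
    induction m' with
    | zero => intro _; simp
    | succ k ih =>
      intro hk
      have h1 : ∑ j ∈ range n, (a (j + (k + 1)) - a j) =
          ∑ j ∈ range n, (a (j + k) - a j) + ∑ j ∈ range n, (a (j + 1 + k) - a (j + k)) := by
        rw [← sum_add_distrib]
        refine sum_congr rfl fun j _ => ?_
        have : j + (k + 1) = j + 1 + k := by omega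
        rw [this]; ring
      have h2 : ∑ j ∈ range n, (a (j + 1 + k) - a (j + k)) = a (n + k) - a (0 + k) :=
        sum_range_sub (fun j => a (j + k)) n
      have h3 : a (n + k) ≤ a (n + m) := hmono (by omega)
      have h4 : a 0 ≤ a (0 + k) := hmono (by omega)
      have h5 := ih (by omega)
      push_cast
      linarith
  exact key m le_rfl

/-- telescoping over the scales: `U j` is a function of `L (j + m)` -/
theorem sum_I_scales (hμ : IsProb μ) (X : Ω → α) {ρ : ℕ → Type*} {υ : ℕ → Type*}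
    (L : ∀ j, Ω → ρ j) (h : ∀ j, Det (L (j + 1)) (L j)) (U : ∀ j, Ω → υ j) (m : ℕ)
    (hU : ∀ j, Det (L (j + m)) (U j)) (n : ℕ) :
    ∑ j ∈ range n, I μ X (U j) (L j) ≤ m * Hc μ X (L 0) := by
  have hL : ∀ j m, Det (L (j + m)) (L j) := by
    intro j m
    induction m with
    | zero => exact Det.refl _
    | succ m ih => exact (h (j + m)).trans ih
  have h1 : ∀ j, I μ X (U j) (L j) ≤ Hc μ X (L j) - Hc μ X (L (j + m)) := by
    intro j
    have h2 := Hc_anti hμ X (show Det (L (j + m)) (fun ω => (U j ω, L j ω)) from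
      (hU j).pair (hL j m))
    unfold I
    linarith
  exact (sum_le_sum fun j _ => h1 j).trans
    (sum_step_le (fun j => Hc_anti hμ X (h j)) (fun j => Hc_nonneg hμ X _) m n)

/-- telescoping over the levels -/
theorem sum_Hc_levels (hμ : IsProb μ) (D : ℕ → Ω → δ) (h : ∀ t, Det (D (t + 1)) (D t)) (m n : ℕ) :
    ∑ t ∈ range n, Hc μ (D (t + m)) (D t) ≤ m * Hc μ (D (n + m)) (D 0) := by
  have hD : ∀ j m, Det (D (j + m)) (D j) := by
    intro j m
    induction m with
    | zero => exact Det.refl _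
    | succ m ih => exact (h (j + m)).trans ih
  have h1 : ∀ j m, Hc μ (D (j + m)) (D j) = H μ (D (j + m)) - H μ (D j) := fun j m =>
    Hc_eq (Det.refl _) (hD j m) (det_fst _ _)
  have h2 : Hc μ (D (n + m)) (D 0) = H μ (D (n + m)) - H μ (D 0) := by
    have := h1 0 (n + m)
    rwa [zero_add] at this
  rw [sum_congr rfl fun t _ => h1 t m, h2]
  exact sum_step_ge (fun j => H_mono hμ (h j)) m n

/-! ## Rows in windows of levels -/

theorem rows_window (hμ : IsProb μ) (R : ℕ → Ω → β) (D : ℕ → Ω → δ)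
    (hR : ∀ t, Det (R (t + 1)) (R t)) (hD : ∀ t, Det (D (t + 1)) (D t)) (t m : ℕ) :
    Hc μ (R (t + m)) (fun ω => (D (t + m) ω, R t ω)) ≤
      ∑ i ∈ range m, Hc μ (R (t + i + 1)) (fun ω => (D (t + i + 1) ω, R (t + i) ω)) := by
  have hRR : ∀ m, Det (R (t + m)) (R t) := by
    intro m
    induction m with
    | zero => exact Det.refl _
    | succ m ih => exact (hR (t + m)).trans ih
  induction m with
  | zero =>
    simp only [add_zero, range_zero, sum_empty]
    exact (Hc_eq_zero (det_snd _ _)).le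
  | succ m ih =>
    rw [sum_range_succ]
    have h1 : Hc μ (R (t + (m + 1))) (fun ω => (D (t + (m + 1)) ω, R t ω)) ≤
        Hc μ (R (t + m)) (fun ω => (D (t + (m + 1)) ω, R t ω)) +
        Hc μ (R (t + (m + 1))) (fun ω => (R (t + m) ω, (D (t + (m + 1)) ω, R t ω))) := by
      rw [← Hc_pair]
      exact Hc_mono_left hμ (det_fst _ _)
    have h2 : Hc μ (R (t + m)) (fun ω => (D (t + (m + 1)) ω, R t ω)) ≤
        Hc μ (R (t + m)) (fun ω => (D (t + m) ω, R t ω)) :=
      Hc_anti hμ _ (((det_fst _ _).trans (hD (t + m))).pair (det_snd _ _))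
    have h3 : Hc μ (R (t + (m + 1))) (fun ω => (R (t + m) ω, (D (t + (m + 1)) ω, R t ω))) ≤
        Hc μ (R (t + m + 1)) (fun ω => (D (t + m + 1) ω, R (t + m) ω)) :=
      Hc_anti hμ _ (((det_snd _ _).trans (det_fst _ _)).pair (det_fst _ _))
    linarith

/-- the entropy of the rows in all the windows -/
theorem sum_rows_window (hμ : IsProb μ) (R : ℕ → Ω → β) (D : ℕ → Ω → δ)
    (hR : ∀ t, Det (R (t + 1)) (R t)) (hD : ∀ t, Det (D (t + 1)) (D t)) (m n : ℕ) :
    ∑ t ∈ range n, Hc μ (R (t + m)) (fun ω => (D (t + m) ω, R t ω)) ≤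
      m * ∑ t ∈ range (n + m), Hc μ (R (t + 1)) (fun ω => (D (t + 1) ω, R t ω)) := by
  set a : ℕ → ℝ := fun t => Hc μ (R (t + 1)) (fun ω => (D (t + 1) ω, R t ω)) with ha
  have ha0 : ∀ t, 0 ≤ a t := fun t => Hc_nonneg hμ _ _
  have h1 : ∑ t ∈ range n, Hc μ (R (t + m)) (fun ω => (D (t + m) ω, R t ω)) ≤
      ∑ t ∈ range n, ∑ i ∈ range m, a (t + i) :=
    sum_le_sum fun t _ => rows_window hμ R D hR hD t m
  refine h1.trans ?_
  rw [sum_comm]
  have h2 : ∀ i ∈ range m, ∑ t ∈ range n, a (t + i) ≤ ∑ t ∈ range (n + m), a t := by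
    intro i hi
    have hi' := mem_range.1 hi
    have e : ∑ t ∈ range n, a (t + i) = ∑ t ∈ (range n).image (fun t => t + i), a t := by
      rw [sum_image]
      intro x _ y _ hxy
      exact Nat.add_right_cancel hxy
    rw [e]
    refine sum_le_sum_of_subset_of_nonneg ?_ fun t _ _ => ha0 t
    intro t ht
    obtain ⟨s, hs, rfl⟩ := mem_image.1 ht
    have hs' := mem_range.1 hs
    exact mem_range.2 (by omega)
  refine (sum_le_sum h2).trans ?_
  rw [sum_const, card_range, nsmul_eq_mul]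

/-! ## Informations as sums -/

lemma sum_cells [DecidableEq α] [DecidableEq β] [DecidableEq γ] (μ : Ω → ℝ) (X : Ω → α)
    (U : Ω → β) (L : Ω → γ) (F : α → β → γ → ℝ) :
    ∑ l ∈ univ.image L, ∑ t ∈ univ.image X ×ˢ univ.image U,
      PE μ (fun ω => X ω = t.1 ∧ U ω = t.2 ∧ L ω = l) * F t.1 t.2 l =
    ∑ ω, μ ω * F (X ω) (U ω) (L ω) := by
  have h1 : ∀ l, ∀ t : α × β, PE μ (fun ω => X ω = t.1 ∧ U ω = t.2 ∧ L ω = l) * F t.1 t.2 l =
      ∑ ω, if X ω = t.1 ∧ U ω = t.2 ∧ L ω = l then μ ω * F (X ω) (U ω) (L ω) else 0 := by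
    intro l t
    rw [PE_eq, sum_mul]
    refine sum_congr rfl fun ω _ => ?_
    split_ifs with h
    · rw [h.1, h.2.1, h.2.2]
    · rw [zero_mul]
  simp only [h1]
  have h2 : ∀ l, ∑ t ∈ univ.image X ×ˢ univ.image U, ∑ ω,
      (if X ω = t.1 ∧ U ω = t.2 ∧ L ω = l then μ ω * F (X ω) (U ω) (L ω) else 0) =
      ∑ ω, if L ω = l then μ ω * F (X ω) (U ω) (L ω) else 0 := by
    intro l
    rw [sum_comm]
    refine sum_congr rfl fun ω _ => ?_
    rw [sum_eq_single (X ω, U ω)]
    · by_cases h : L ω = l <;> simp [h]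
    · intro t _ ht
      refine if_neg fun h => ht (Prod.ext h.1.symm h.2.1.symm)
    · intro h
      exact absurd (mem_product.2 ⟨mem_image_of_mem X (mem_univ ω),
        mem_image_of_mem U (mem_univ ω)⟩) h
  simp only [h2]
  rw [sum_comm]
  refine sum_congr rfl fun ω _ => ?_
  rw [sum_ite_eq, if_pos (mem_image_of_mem L (mem_univ ω))]

lemma sum_PE_image [DecidableEq α] (μ : Ω → ℝ) (X : Ω → α) (Q : Ω → Prop) :
    ∑ x ∈ univ.image X, PE μ (fun ω => X ω = x ∧ Q ω) = PE μ Q := by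
  classical
  have h1 : ∀ x, PE μ (fun ω => X ω = x ∧ Q ω) =
      ∑ ω, if X ω = x then (if Q ω then μ ω else 0) else 0 := by
    intro x
    rw [PE_eq]
    refine sum_congr rfl fun ω _ => ?_
    by_cases h : X ω = x <;> simp [h]
  simp only [h1]
  rw [sum_comm, PE_eq]
  refine sum_congr rfl fun ω _ => ?_
  rw [sum_ite_eq, if_pos (mem_image_of_mem X (mem_univ ω))]

lemma PE_eq_Pr {ι : Type*} (μ : Ω → ℝ) (X : Ω → ι) (x : ι) :
    PE μ (fun ω => X ω = x) = Pr μ X x := by
  classical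
  unfold PE Pr
  refine sum_congr rfl fun ω _ => ?_
  by_cases h : X ω = x <;> simp [h]

/-- the information is a sum of terms `gk` -/
theorem sum_gk_I [DecidableEq α] [DecidableEq β] [DecidableEq γ] (hμ : IsProb μ) (X : Ω → α)
    (U : Ω → β) (L : Ω → γ) :
    ∑ l ∈ univ.image L, ∑ t ∈ univ.image X ×ˢ univ.image U,
      gk (PE μ (fun ω => X ω = t.1 ∧ U ω = t.2 ∧ L ω = l))
        (PE μ (fun ω => X ω = t.1 ∧ L ω = l) / PE μ (fun ω => L ω = l) *
          PE μ (fun ω => U ω = t.2 ∧ L ω = l)) = I μ X U L := by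
  set a : α → β → γ → ℝ := fun x u l => PE μ (fun ω => X ω = x ∧ U ω = u ∧ L ω = l) with ha
  set b : α → β → γ → ℝ := fun x u l => PE μ (fun ω => X ω = x ∧ L ω = l) /
    PE μ (fun ω => L ω = l) * PE μ (fun ω => U ω = u ∧ L ω = l) with hb
  have e0 : ∀ l, ∀ t : α × β, gk (a t.1 t.2 l) (b t.1 t.2 l) =
      a t.1 t.2 l * log (a t.1 t.2 l / b t.1 t.2 l) - a t.1 t.2 l * 1 + b t.1 t.2 l := by
    intro l t
    unfold gk
    ring
  have e1 := sum_cells μ X U L (fun x u l => log (a x u l / b x u l))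
  have e2 := sum_cells μ X U L (fun _ _ _ => (1 : ℝ))
  have e3 : ∑ l ∈ univ.image L, ∑ t ∈ univ.image X ×ˢ univ.image U, b t.1 t.2 l = 1 := by
    have f1 : ∀ l, ∑ t ∈ univ.image X ×ˢ univ.image U, b t.1 t.2 l = Pr μ L l := by
      intro l
      rw [sum_product]
      have f2 : ∀ x, ∑ u ∈ univ.image U, b x u l = PE μ (fun ω => X ω = x ∧ L ω = l) /
          PE μ (fun ω => L ω = l) * PE μ (fun ω => L ω = l) := by
        intro x
        simp only [hb]
        rw [← mul_sum, sum_PE_image]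
      simp only [f2]
      rw [← sum_mul, ← sum_div, sum_PE_image]
      rw [PE_eq_Pr μ L l]
      rcases eq_or_ne (Pr μ L l) 0 with h0 | h0
      · rw [h0]; simp
      · field_simp
    simp only [f1]
    exact sum_Pr hμ L
  have e4 : ∑ l ∈ univ.image L, ∑ t ∈ univ.image X ×ˢ univ.image U,
      gk (a t.1 t.2 l) (b t.1 t.2 l) =
      ∑ ω, μ ω * log (a (X ω) (U ω) (L ω) / b (X ω) (U ω) (L ω)) := by
    simp only [e0, sum_add_distrib, sum_sub_distrib]
    rw [e1, e2, e3]
    simp only [mul_one]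
    rw [hμ.sum]
    ring
  refine e4.trans ?_
  unfold I Hc H
  rw [← sum_sub_distrib, ← sum_sub_distrib, ← sum_sub_distrib]
  refine sum_congr rfl fun ω _ => ?_
  rcases (hμ.nonneg ω).eq_or_lt with h0 | h0
  · rw [← h0]; ring
  · have p1 := Pr_pos hμ (fun ω => (X ω, L ω)) h0
    have p2 := Pr_pos hμ L h0
    have p3 := Pr_pos hμ (fun ω => (X ω, (U ω, L ω))) h0
    have p4 := Pr_pos hμ (fun ω => (U ω, L ω)) h0
    have q1 : PE μ (fun ω' => X ω' = X ω ∧ L ω' = L ω) =
        Pr μ (fun ω => (X ω, L ω)) (X ω, L ω) := by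
      rw [← PE_eq_Pr]
      exact PE_congr fun ω' => by simp only [Prod.mk.injEq]
    have q2 : PE μ (fun ω' => L ω' = L ω) = Pr μ L (L ω) := PE_eq_Pr μ L (L ω)
    have q3 : PE μ (fun ω' => X ω' = X ω ∧ U ω' = U ω ∧ L ω' = L ω) =
        Pr μ (fun ω => (X ω, (U ω, L ω))) (X ω, (U ω, L ω)) := by
      rw [← PE_eq_Pr]
      exact PE_congr fun ω' => by simp only [Prod.mk.injEq]
    have q4 : PE μ (fun ω' => U ω' = U ω ∧ L ω' = L ω) =
        Pr μ (fun ω => (U ω, L ω)) (U ω, L ω) := by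
      rw [← PE_eq_Pr]
      exact PE_congr fun ω' => by simp only [Prod.mk.injEq]
    simp only [ha, hb]
    rw [q1, q2, q3, q4, log_div p3.ne' (by positivity), log_mul (by positivity) p4.ne',
      log_div p1.ne' p2.ne']
    ring

/-! ## The budget of the boxes -/

open Classical in
/-- one label, one line cell -/
lemma sum_gk_label_le (hμ : IsProb μ) {ε : Type*} (X : Ω → α) (E : Ω → ε) (C : Ω → β) (L : Ω → γ)
    (e : ε) (l : γ) :
    ∑ t ∈ univ.image X ×ˢ univ.image C,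
      gk (PE μ (fun ω => X ω = t.1 ∧ E ω = e ∧ C ω = t.2 ∧ L ω = l))
        (PE μ (fun ω => X ω = t.1 ∧ L ω = l) / PE μ (fun ω => L ω = l) *
          PE μ (fun ω => E ω = e ∧ C ω = t.2 ∧ L ω = l)) ≤
    ∑ t ∈ univ.image X ×ˢ univ.image (fun ω => (E ω, C ω)),
      gk (PE μ (fun ω => X ω = t.1 ∧ (E ω, C ω) = t.2 ∧ L ω = l))
        (PE μ (fun ω => X ω = t.1 ∧ L ω = l) / PE μ (fun ω => L ω = l) *
          PE μ (fun ω => (E ω, C ω) = t.2 ∧ L ω = l)) := by
  set G : α × (ε × β) → ℝ := fun t =>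
    gk (PE μ (fun ω => X ω = t.1 ∧ (E ω, C ω) = t.2 ∧ L ω = l))
        (PE μ (fun ω => X ω = t.1 ∧ L ω = l) / PE μ (fun ω => L ω = l) *
          PE μ (fun ω => (E ω, C ω) = t.2 ∧ L ω = l)) with hG
  have hG0 : ∀ t, 0 ≤ G t := by
    intro t
    refine gk_nonneg (PE_nonneg hμ _) (mul_nonneg (div_nonneg (PE_nonneg hμ _)
      (PE_nonneg hμ _)) (PE_nonneg hμ _)) fun h => ?_
    have h1 : 0 < PE μ (fun ω => X ω = t.1 ∧ L ω = l) :=
      h.trans_le (PE_mono hμ fun ω h => ⟨h.1, h.2.2⟩)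
    have h2 : 0 < PE μ (fun ω => L ω = l) := h.trans_le (PE_mono hμ fun ω h => h.2.2)
    have h3 : 0 < PE μ (fun ω => (E ω, C ω) = t.2 ∧ L ω = l) :=
      h.trans_le (PE_mono hμ fun ω h => h.2)
    positivity
  have e1 : ∀ t : α × β, gk (PE μ (fun ω => X ω = t.1 ∧ E ω = e ∧ C ω = t.2 ∧ L ω = l))
        (PE μ (fun ω => X ω = t.1 ∧ L ω = l) / PE μ (fun ω => L ω = l) *
          PE μ (fun ω => E ω = e ∧ C ω = t.2 ∧ L ω = l)) = G (t.1, (e, t.2)) := by
    intro t
    simp only [hG]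
    rw [PE_congr (μ := μ) (A := fun ω => X ω = t.1 ∧ E ω = e ∧ C ω = t.2 ∧ L ω = l)
      (B := fun ω => X ω = t.1 ∧ (E ω, C ω) = (e, t.2) ∧ L ω = l) fun ω => by
        simp only [Prod.mk.injEq]; tauto,
      PE_congr (μ := μ) (A := fun ω => E ω = e ∧ C ω = t.2 ∧ L ω = l)
      (B := fun ω => (E ω, C ω) = (e, t.2) ∧ L ω = l) fun ω => by
        simp only [Prod.mk.injEq]; tauto]
  rw [sum_congr rfl fun t _ => e1 t]
  have hz : ∀ t : α × β, t.1 ∈ univ.image X → (e, t.2) ∉ univ.image (fun ω => (E ω, C ω)) →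
      G (t.1, (e, t.2)) = 0 := by
    intro t _ ht
    have h2 : ∀ ω, ¬ ((E ω, C ω) = (e, t.2) ∧ L ω = l) := fun ω h =>
      ht (h.1 ▸ mem_image_of_mem (fun ω => (E ω, C ω)) (mem_univ ω))
    simp only [hG]
    rw [PE_false h2, PE_false fun ω h => h2 ω h.2]
    unfold gk
    simp
  rw [sum_product, sum_product]
  refine sum_le_sum fun x hx => ?_
  have h3 : ∑ c ∈ univ.image C, G (x, (e, c)) =
      ∑ c ∈ (univ.image C).filter (fun c => (e, c) ∈ univ.image (fun ω => (E ω, C ω))),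
        G (x, (e, c)) := by
    symm
    refine sum_subset (filter_subset _ _) fun c hc hc' => ?_
    refine hz (x, c) hx fun h => hc' (mem_filter.2 ⟨hc, h⟩)
  rw [h3]
  have h4 : ∑ c ∈ (univ.image C).filter (fun c => (e, c) ∈ univ.image (fun ω => (E ω, C ω))),
        G (x, (e, c)) = ∑ y ∈ ((univ.image C).filter
        (fun c => (e, c) ∈ univ.image (fun ω => (E ω, C ω)))).image (fun c => (e, c)),
        G (x, y) := by
    rw [sum_image]
    intro c _ c' _ h
    exact (Prod.mk.inj h).2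
  rw [h4]
  refine sum_le_sum_of_subset_of_nonneg ?_ fun y _ _ => hG0 _
  intro y hy
  obtain ⟨c, hc, rfl⟩ := mem_image.1 hy
  exact (mem_filter.1 hc).2

open Classical in
/-- **the boxes of one column and one level**: disjoint ranges in the line cells -/
theorem sum_DL_le (hμ : IsProb μ) {ε ι : Type*} (X : Ω → α) (E : Ω → ε) (C : Ω → β)
    (L : Ω → γ) (e : ε) (s : Finset ι) (l : ι → γ) (LP R : ι → Ω → Prop)
    (hL : ∀ i ∈ s, ∀ ω, LP i ω ↔ L ω = l i) (xh : ι → α → ℝ) (eh : ι → ε → ℝ)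
    (ch : ι → β → ℝ) (J0 J1 : ι → ℝ) (p : ι → α → ℝ)
    (hp : ∀ i ∈ s, ∀ x, p i x = PE μ (fun ω => X ω = x ∧ LP i ω) / PE μ (LP i))
    (hdis : ∀ i ∈ s, ∀ i' ∈ s, i ≠ i' → l i = l i' → ∀ x c,
      ch i c + eh i e * xh i x ∈ Set.Icc (J0 i) (J1 i) →
      ch i' c + eh i' e * xh i' x ∉ Set.Icc (J0 i') (J1 i')) :
    ∑ i ∈ s, PE μ (fun ω => E ω = e ∧ R i ω) *
      DL μ X E C (xh i) (eh i) (ch i) (LP i) (R i) (J0 i) (J1 i) (p i) e ≤
      I μ X (fun ω => (E ω, C ω)) L := by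
  set G : γ → α × β → ℝ := fun l t =>
    gk (PE μ (fun ω => X ω = t.1 ∧ E ω = e ∧ C ω = t.2 ∧ L ω = l))
        (PE μ (fun ω => X ω = t.1 ∧ L ω = l) / PE μ (fun ω => L ω = l) *
          PE μ (fun ω => E ω = e ∧ C ω = t.2 ∧ L ω = l)) with hG
  have hG0 : ∀ l t, 0 ≤ G l t := by
    intro l t
    refine gk_nonneg (PE_nonneg hμ _) (mul_nonneg (div_nonneg (PE_nonneg hμ _)
      (PE_nonneg hμ _)) (PE_nonneg hμ _)) fun h => ?_
    have h1 : 0 < PE μ (fun ω => X ω = t.1 ∧ L ω = l) :=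
      h.trans_le (PE_mono hμ fun ω h => ⟨h.1, h.2.2.2⟩)
    have h2 : 0 < PE μ (fun ω => L ω = l) := h.trans_le (PE_mono hμ fun ω h => h.2.2.2)
    have h3 : 0 < PE μ (fun ω => E ω = e ∧ C ω = t.2 ∧ L ω = l) :=
      h.trans_le (PE_mono hμ fun ω h => h.2)
    positivity
  set T := univ.image X ×ˢ univ.image C with hT
  set A : ι → Finset (α × β) := fun i =>
    T.filter (fun t => ch i t.2 + eh i e * xh i t.1 ∈ Set.Icc (J0 i) (J1 i)) with hA
  -- one box
  have h1 : ∀ i ∈ s, PE μ (fun ω => E ω = e ∧ R i ω) *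
      DL μ X E C (xh i) (eh i) (ch i) (LP i) (R i) (J0 i) (J1 i) (p i) e ≤
      ∑ t ∈ A i, G (l i) t := by
    intro i hi
    have e0 : ∑ t ∈ A i, gk (PE μ (fun ω => X ω = t.1 ∧ E ω = e ∧ C ω = t.2 ∧ LP i ω))
        (p i t.1 * PE μ (fun ω => E ω = e ∧ C ω = t.2 ∧ LP i ω)) = ∑ t ∈ A i, G (l i) t := by
      refine sum_congr rfl fun t _ => ?_
      simp only [hG]
      rw [hp i hi, PE_congr (μ := μ) (A := fun ω => X ω = t.1 ∧ LP i ω)
        (B := fun ω => X ω = t.1 ∧ L ω = l i) fun ω => and_congr_right fun _ => hL i hi ω,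
        PE_congr (μ := μ) (A := LP i) (B := fun ω => L ω = l i) fun ω => hL i hi ω,
        PE_congr (μ := μ) (A := fun ω => X ω = t.1 ∧ E ω = e ∧ C ω = t.2 ∧ LP i ω)
        (B := fun ω => X ω = t.1 ∧ E ω = e ∧ C ω = t.2 ∧ L ω = l i) fun ω =>
          and_congr_right fun _ => and_congr_right fun _ => and_congr_right fun _ => hL i hi ω,
        PE_congr (μ := μ) (A := fun ω => E ω = e ∧ C ω = t.2 ∧ LP i ω)
        (B := fun ω => E ω = e ∧ C ω = t.2 ∧ L ω = l i) fun ω =>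
          and_congr_right fun _ => and_congr_right fun _ => hL i hi ω]
    have e1 : 0 ≤ ∑ t ∈ A i, G (l i) t := sum_nonneg fun t _ => hG0 _ _
    unfold DL
    rcases (PE_nonneg hμ (fun ω => E ω = e ∧ R i ω)).eq_or_lt with h0 | h0
    · rw [← h0, zero_mul]
      exact e1
    · rw [mul_div_cancel₀ _ h0.ne']
      exact e0.le
  refine (sum_le_sum h1).trans ?_
  -- the boxes of one line cell
  have hI := sum_gk_I hμ X (fun ω => (E ω, C ω)) L
  have h2 : ∑ i ∈ s, ∑ t ∈ A i, G (l i) t ≤ ∑ y ∈ univ.image L, ∑ t ∈ T, G y t := by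
    have e2 : ∑ i ∈ s, ∑ t ∈ A i, G (l i) t =
        ∑ y ∈ s.image l, ∑ i ∈ s.filter (fun i => l i = y), ∑ t ∈ A i, G y t := by
      rw [← sum_fiberwise_of_maps_to (g := l) (t := s.image l)
        (fun i hi => mem_image_of_mem l hi)]
      refine sum_congr rfl fun y _ => sum_congr rfl fun i hi => ?_
      rw [(mem_filter.1 hi).2]
    have e3 : ∀ y, ∑ i ∈ s.filter (fun i => l i = y), ∑ t ∈ A i, G y t ≤ ∑ t ∈ T, G y t := by
      intro y
      rw [← sum_biUnion]
      · refine sum_le_sum_of_subset_of_nonneg ?_ fun t _ _ => hG0 y t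
        intro t ht
        obtain ⟨i, _, hi⟩ := mem_biUnion.1 ht
        exact (mem_filter.1 hi).1
      · intro i hi i' hi' hne
        rw [Function.onFun, disjoint_left]
        intro t ht ht'
        have f1 := mem_filter.1 (mem_coe.1 hi)
        have f2 := mem_filter.1 (mem_coe.1 hi')
        exact hdis i f1.1 i' f2.1 hne (f1.2.trans f2.2.symm) t.1 t.2 (mem_filter.1 ht).2
          (mem_filter.1 ht').2
    have e4 : ∀ y, y ∉ univ.image L → ∑ t ∈ T, G y t = 0 := by
      intro y hy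
      have hy' : ∀ ω, ¬ L ω = y := fun ω h => hy (h ▸ mem_image_of_mem L (mem_univ ω))
      refine sum_eq_zero fun t _ => ?_
      simp only [hG]
      rw [PE_false (A := fun ω => X ω = t.1 ∧ E ω = e ∧ C ω = t.2 ∧ L ω = y)
          fun ω h => hy' ω h.2.2.2,
        PE_false (A := fun ω => E ω = e ∧ C ω = t.2 ∧ L ω = y) fun ω h => hy' ω h.2.2]
      unfold gk
      simp
    rw [e2]
    refine (sum_le_sum fun y _ => e3 y).trans ?_
    have e5 : ∑ y ∈ s.image l, ∑ t ∈ T, G y t =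
        ∑ y ∈ (s.image l).filter (fun y => y ∈ univ.image L), ∑ t ∈ T, G y t := by
      symm
      refine sum_subset (filter_subset _ _) fun y hy hy' => e4 y fun h =>
        hy' (mem_filter.2 ⟨hy, h⟩)
    rw [e5]
    refine sum_le_sum_of_subset_of_nonneg ?_ fun y _ _ => sum_nonneg fun t _ => hG0 y t
    intro y hy
    exact (mem_filter.1 hy).2
  refine h2.trans ?_
  rw [← hI]
  exact sum_le_sum fun y _ => sum_gk_label_le hμ X E C L e y

end Vale.Agent.P065.H60
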