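import Vale.Agent.P065.H60.Grid
import Vale.Agent.P065.H268.TimeGrid
import Vale.Agent.P065.H587.Ent2

/-!
# P065, package EXT: subdivision of the bottom pieces (helper60)

`Itv Ω` : nested pieces of time with disjoint bottom intervals `(lo, hi)`. The extended space is
`Ω × Fin (2 ^ (q + 1))`; the second coordinate is the index of a dyadic grid point of step
`2 ^ (-(T + q))` inside the bottom interval, `2 ^ (-T) < hi - lo ≤ 2 * 2 ^ (-T)`.
-/

set_option autoImplicit false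

namespace Vale.Agent.P065.H60

open Finset Vale.Agent.P065.Ent Vale.Agent.P065.H268

/-- nested pieces of time with disjoint bottom intervals -/
structure Itv (Ω : Type*) where
  P : Pcs Ω
  n : ℕ
  lo : Ω → ℝ
  hi : Ω → ℝ
  lo_nonneg : ∀ ω, 0 ≤ lo ω
  lo_lt_hi : ∀ ω, lo ω < hi ω
  hi_le_one : ∀ ω, hi ω ≤ 1
  lo_congr : ∀ ω ω', P.W n ω = P.W n ω' → lo ω = lo ω'
  hi_congr : ∀ ω ω', P.W n ω = P.W n ω' → hi ω = hi ω'
  hi_le_lo : ∀ ω ω', P.W n ω < P.W n ω' → hi ω ≤ lo ω'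

namespace Itv

/-! ## The grid points -/

section pts

variable {Ω : Type*} (I : Itv Ω) (q : ℕ)

/-- the scale of the bottom interval -/
noncomputable def T (ω : Ω) : ℕ := gT (I.lo ω) (I.hi ω)

theorem T_congr {ω ω' : Ω} (h : I.P.W I.n ω = I.P.W I.n ω') : I.T ω = I.T ω' := by
  unfold T
  rw [I.lo_congr ω ω' h, I.hi_congr ω ω' h]

theorem one_lt_T (ω : Ω) : 1 < (2 : ℝ) ^ I.T ω * (I.hi ω - I.lo ω) := one_lt_gT (I.lo_lt_hi ω)

theorem sub_le_one (ω : Ω) : I.hi ω - I.lo ω ≤ 1 := by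
  have h1 := I.lo_nonneg ω
  have h2 := I.hi_le_one ω
  linarith

theorem T_le_two (ω : Ω) : (2 : ℝ) ^ I.T ω * (I.hi ω - I.lo ω) ≤ 2 :=
  gT_le_two (I.lo_lt_hi ω) (I.sub_le_one ω)

/-- the scale of the grid -/
noncomputable def TE (a : Ω × Fin (2 ^ (q + 1))) : ℕ := I.T a.1 + q

theorem gM_eq (a : Ω × Fin (2 ^ (q + 1))) :
    gM q (I.lo a.1) (I.hi a.1) = 2 ^ I.TE q a := rfl

/-- the grid point -/
noncomputable def x (a : Ω × Fin (2 ^ (q + 1))) : ℝ := gpt q (I.lo a.1) (I.hi a.1) a.2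

/-- the position of the grid point in its interval -/
noncomputable def k (a : Ω × Fin (2 ^ (q + 1))) : ℕ := gk q (I.lo a.1) (I.hi a.1) a.2

theorem k_lt (a : Ω × Fin (2 ^ (q + 1))) : I.k q a < 2 ^ (q + 1) := Fin.is_lt _

theorem lo_lt_x (a : Ω × Fin (2 ^ (q + 1))) : I.lo a.1 < I.x q a := lo_lt_gpt q _ _ _

theorem x_lt_hi (a : Ω × Fin (2 ^ (q + 1))) : I.x q a < I.hi a.1 := gpt_lt_hi q (I.lo_lt_hi a.1) _

/-- the grid points are dyadic -/
theorem dyadic (a : Ω × Fin (2 ^ (q + 1))) : ∃ z : ℤ, 2 ^ I.TE q a * I.x q a = z :=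
  ⟨_, gM_mul_gpt q (I.lo a.1) (I.hi a.1) a.2⟩

/-- the grid points are dense in the interval -/
theorem cover (ω : Ω) {y : ℝ} (h0 : I.lo ω ≤ y) (h1 : y ≤ I.hi ω) :
    ∃ r : Fin (2 ^ (q + 1)), |I.x q (ω, r) - y| ≤ 1 / 2 ^ (I.T ω + q) :=
  gpt_cover q (I.lo_lt_hi ω) (I.sub_le_one ω) h0 h1

theorem W_le_of_x_le {a b : Ω × Fin (2 ^ (q + 1))} (h : I.x q a ≤ I.x q b) :
    I.P.W I.n a.1 ≤ I.P.W I.n b.1 := by
  by_contra hc
  push Not at hc
  have h1 := I.hi_le_lo b.1 a.1 hc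
  have h2 := I.lo_lt_x q a
  have h3 := I.x_lt_hi q b
  linarith

theorem W_eq_of_x_eq {a b : Ω × Fin (2 ^ (q + 1))} (h : I.x q a = I.x q b) :
    I.P.W I.n a.1 = I.P.W I.n b.1 :=
  le_antisymm (I.W_le_of_x_le q h.le) (I.W_le_of_x_le q h.ge)

/-- inside one piece the order of the points is the order of the positions -/
theorem x_le_iff {a b : Ω × Fin (2 ^ (q + 1))} (h : I.P.W I.n a.1 = I.P.W I.n b.1) :
    I.x q a ≤ I.x q b ↔ I.k q a ≤ I.k q b := by
  unfold x k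
  rw [I.lo_congr _ _ h, I.hi_congr _ _ h]
  exact gpt_le_iff q _ _ _ _

theorem x_eq_iff {a b : Ω × Fin (2 ^ (q + 1))} (h : I.P.W I.n a.1 = I.P.W I.n b.1) :
    I.x q a = I.x q b ↔ I.k q a = I.k q b := by
  rw [le_antisymm_iff, I.x_le_iff q h, I.x_le_iff q h.symm, ← le_antisymm_iff]

theorem W_mono_of_le {j : ℕ} (hj : j ≤ I.n) {ω ω' : Ω} (h : I.P.W I.n ω ≤ I.P.W I.n ω') :
    I.P.W j ω ≤ I.P.W j ω' := by
  rcases h.eq_or_lt with h | h
  · exact (I.P.nest_le hj h).le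
  · exact I.P.mono j _ _ (I.P.x_lt h).le

/-- the label of the bottom piece of the extended space -/
noncomputable def Wb (a : Ω × Fin (2 ^ (q + 1))) : ℕ := 2 ^ (q + 1) * I.P.W I.n a.1 + I.k q a

theorem Wb_div (a : Ω × Fin (2 ^ (q + 1))) : I.Wb q a / 2 ^ (q + 1) = I.P.W I.n a.1 := by
  unfold Wb
  rw [Nat.mul_add_div (by positivity), Nat.div_eq_of_lt (I.k_lt q a), add_zero]

theorem Wb_mod (a : Ω × Fin (2 ^ (q + 1))) : I.Wb q a % 2 ^ (q + 1) = I.k q a := by
  unfold Wb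
  rw [Nat.mul_add_mod, Nat.mod_eq_of_lt (I.k_lt q a)]

theorem Wb_eq_iff (a b : Ω × Fin (2 ^ (q + 1))) :
    I.Wb q a = I.Wb q b ↔ I.P.W I.n a.1 = I.P.W I.n b.1 ∧ I.k q a = I.k q b := by
  constructor
  · intro h
    have h1 := I.Wb_div q a
    have h2 := I.Wb_mod q a
    rw [h] at h1 h2
    exact ⟨h1.symm.trans (I.Wb_div q b), h2.symm.trans (I.Wb_mod q b)⟩
  · rintro ⟨h1, h2⟩
    unfold Wb
    rw [h1, h2]

/-- the bottom piece is the time -/
theorem Wb_eq_iff_x (a b : Ω × Fin (2 ^ (q + 1))) : I.Wb q a = I.Wb q b ↔ I.x q a = I.x q b := by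
  rw [I.Wb_eq_iff q]
  constructor
  · rintro ⟨h1, h2⟩
    exact (I.x_eq_iff q h1).2 h2
  · intro h
    have h1 := I.W_eq_of_x_eq q h
    exact ⟨h1, (I.x_eq_iff q h1).1 h⟩

theorem Wb_mono {a b : Ω × Fin (2 ^ (q + 1))} (h : I.x q a ≤ I.x q b) : I.Wb q a ≤ I.Wb q b := by
  have h1 := I.W_le_of_x_le q h
  rcases h1.eq_or_lt with h2 | h2
  · have h3 := (I.x_le_iff q h2).1 h
    unfold Wb
    rw [h2]
    omega
  · have h3 := I.k_lt q a
    have h4 : 2 ^ (q + 1) * (I.P.W I.n a.1 + 1) ≤ 2 ^ (q + 1) * I.P.W I.n b.1 :=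
      Nat.mul_le_mul_left _ h2
    unfold Wb
    rw [mul_add, mul_one] at h4
    omega

end pts

/-! ## The extended pieces -/

section ext

variable {Ω : Type*} [Fintype Ω] (I : Itv Ω) (q : ℕ)

/-- the finest scale -/
noncomputable def R : ℕ := univ.sup I.T + q

theorem TE_le_R (a : Ω × Fin (2 ^ (q + 1))) : I.TE q a ≤ I.R q := by
  unfold TE R
  have := le_sup (f := I.T) (mem_univ a.1)
  omega

/-- all the grid points are multiples of `2 ^ (-R)` -/
theorem dyadicR (a : Ω × Fin (2 ^ (q + 1))) {R' : ℕ} (hR : I.R q ≤ R') :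
    ∃ z : ℤ, 2 ^ R' * I.x q a = z := by
  obtain ⟨z, hz⟩ := I.dyadic q a
  have h := (I.TE_le_R q a).trans hR
  refine ⟨2 ^ (R' - I.TE q a) * z, ?_⟩
  have e : (2 : ℝ) ^ R' = 2 ^ (R' - I.TE q a) * 2 ^ I.TE q a := by
    rw [← pow_add, Nat.sub_add_cancel h]
  rw [e, mul_assoc, hz]
  push_cast
  rfl

theorem x_pos (a : Ω × Fin (2 ^ (q + 1))) : 1 / 2 ^ I.R q ≤ I.x q a := by
  obtain ⟨z, hz⟩ := I.dyadicR q a le_rfl
  have h0 : 0 < I.x q a := (I.lo_nonneg a.1).trans_lt (I.lo_lt_x q a)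
  have h2 : (0 : ℝ) < 2 ^ I.R q := by positivity
  have h1 : (0 : ℝ) < z := by
    rw [← hz]
    positivity
  have h3 : (1 : ℝ) ≤ z := by
    have : (0 : ℤ) < z := by exact_mod_cast h1
    exact_mod_cast this
  rw [div_le_iff₀ h2, mul_comm, hz]
  exact h3

omit [Fintype Ω] in
theorem x_lt_one (a : Ω × Fin (2 ^ (q + 1))) : I.x q a < 1 :=
  (I.x_lt_hi q a).trans_le (I.hi_le_one a.1)

theorem x_sep {a b : Ω × Fin (2 ^ (q + 1))} (h : I.x q a < I.x q b) :
    I.x q a + 1 / 2 ^ I.R q ≤ I.x q b := by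
  obtain ⟨z, hz⟩ := I.dyadicR q a le_rfl
  obtain ⟨z', hz'⟩ := I.dyadicR q b le_rfl
  have h2 : (0 : ℝ) < 2 ^ I.R q := by positivity
  have h1 : (z : ℝ) < z' := by
    rw [← hz, ← hz']
    exact mul_lt_mul_of_pos_left h h2
  have h3 : (z : ℝ) + 1 ≤ z' := by
    have : z < z' := by exact_mod_cast h1
    exact_mod_cast this
  rw [← hz, ← hz'] at h3
  have e : I.x q a + 1 / 2 ^ I.R q = (2 ^ I.R q * I.x q a + 1) / 2 ^ I.R q := by
    field_simp
  rw [e, div_le_iff₀ h2]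
  linarith

/-- **the pieces of the extended space** -/
noncomputable def ext : Pcs (Ω × Fin (2 ^ (q + 1))) where
  x := I.x q
  W := fun j a => if j ≤ I.n then I.P.W j a.1 else I.Wb q a
  δ := 1 / 2 ^ I.R q
  T := I.R q + 2
  mono := by
    intro j a b h
    split_ifs with hj
    · exact I.W_mono_of_le hj (I.W_le_of_x_le q h)
    · exact I.Wb_mono q h
  nest := by
    intro j a b h
    by_cases h1 : j + 1 ≤ I.n
    · have h2 : j ≤ I.n := by omega
      simp only [h1, h2, if_true] at h ⊢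
      exact I.P.nest j _ _ h
    · simp only [h1, if_false] at h
      split_ifs with h2
      · exact I.P.nest_le h2 ((I.Wb_eq_iff q a b).1 h).1
      · exact h
  δ_pos := by positivity
  sep := by
    intro a b h
    exact I.x_sep q h
  diam := by
    intro a b
    have h1 := I.x_pos q a
    have h2 := I.x_lt_one q b
    linarith
  bot := by
    rw [pow_add]
    have h2 : (0 : ℝ) < 2 ^ I.R q := by positivity
    field_simp
    norm_num

@[simp] theorem ext_x (a : Ω × Fin (2 ^ (q + 1))) : (I.ext q).x a = I.x q a := rfl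

@[simp] theorem ext_T : (I.ext q).T = I.R q + 2 := rfl

theorem ext_W {j : ℕ} (hj : j ≤ I.n) (a : Ω × Fin (2 ^ (q + 1))) :
    (I.ext q).W j a = I.P.W j a.1 := if_pos hj

theorem ext_W' {j : ℕ} (hj : I.n < j) (a : Ω × Fin (2 ^ (q + 1))) :
    (I.ext q).W j a = I.Wb q a := if_neg (by omega)

/-- the dyadic cells separate the points from the scale `R` on -/
theorem D_inj {t : ℕ} (ht : I.R q ≤ t) {a b : Ω × Fin (2 ^ (q + 1))}
    (h : (I.ext q).D t a = (I.ext q).D t b) : I.x q a = I.x q b := by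
  obtain ⟨z, hz⟩ := I.dyadicR q a ht
  obtain ⟨z', hz'⟩ := I.dyadicR q b ht
  unfold Pcs.D at h
  rw [ext_x, ext_x, hz, hz', Int.floor_intCast, Int.floor_intCast] at h
  have h2 : (2 : ℝ) ^ t ≠ 0 := by positivity
  apply mul_left_cancel₀ h2
  rw [hz, hz', h]

end ext

end Itv

/-! ## The extended law -/

section law

variable {Ω : Type*} [Fintype Ω] {α β γ : Type*} (m : ℕ) [NeZero m]

/-- the law of the extended space -/
noncomputable def exL (ν : Ω → ℝ) (a : Ω × Fin m) : ℝ := ν a.1 / m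

omit [Fintype Ω] [NeZero m] in
theorem exL_def (ν : Ω → ℝ) (a : Ω × Fin m) : exL m ν a = ν a.1 / m := rfl

theorem m_pos : (0 : ℝ) < m := by
  have := NeZero.pos m
  exact_mod_cast this

omit [Fintype Ω] in
theorem exL_pos {ν : Ω → ℝ} {a : Ω × Fin m} (h : 0 < ν a.1) : 0 < exL m ν a :=
  div_pos h (m_pos m)

omit [NeZero m] in
/-- an average over the extended space -/
theorem sum_exL (ν : Ω → ℝ) (f : Ω × Fin m → ℝ) :
    ∑ a, exL m ν a * f a = (∑ r : Fin m, ∑ ω, ν ω * f (ω, r)) / m := by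
  rw [Fintype.sum_prod_type_right, sum_div]
  refine sum_congr rfl fun r _ => ?_
  rw [sum_div]
  refine sum_congr rfl fun ω _ => ?_
  unfold exL
  ring

/-- an average of a function of the flag -/
theorem sum_exL_fst (ν : Ω → ℝ) (f : Ω → ℝ) : ∑ a, exL m ν a * f a.1 = ∑ ω, ν ω * f ω := by
  have h : ∑ a, exL m ν a * f a.1 = (∑ _r : Fin m, ∑ ω, ν ω * f ω) / m :=
    sum_exL m ν (fun a => f a.1)
  rw [h, sum_const, card_univ, Fintype.card_fin, nsmul_eq_mul]
  have := (m_pos m).ne'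
  field_simp

theorem exL_isProb {ν : Ω → ℝ} (h : IsProb ν) : IsProb (exL m ν) := by
  refine ⟨fun a => div_nonneg (h.nonneg _) (m_pos m).le, ?_⟩
  have h1 := sum_exL_fst m ν (fun _ => 1)
  simp only [mul_one] at h1
  rw [h1, h.sum]

/-- the law of a function of the flag -/
theorem Pr_exL (ν : Ω → ℝ) (X : Ω → α) (y : α) :
    Pr (exL m ν) (fun a => X a.1) y = Pr ν X y := by
  classical
  unfold Pr
  have h := sum_exL_fst m ν (fun ω => if X ω = y then (1 : ℝ) else 0)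
  simpa only [mul_ite, mul_one, mul_zero] using h

theorem H_exL (ν : Ω → ℝ) (X : Ω → α) : H (exL m ν) (fun a => X a.1) = H ν X := by
  unfold H
  simp only [Pr_exL]
  exact sum_exL_fst m ν (fun ω => - Real.log (Pr ν X (X ω)))

theorem Hc_exL (ν : Ω → ℝ) (X : Ω → α) (Y : Ω → β) :
    Hc (exL m ν) (fun a => X a.1) (fun a => Y a.1) = Hc ν X Y := by
  unfold Hc
  rw [H_exL m ν Y, H_exL m ν (fun ω => (X ω, Y ω))]

theorem I_exL (ν : Ω → ℝ) (X : Ω → α) (Y : Ω → β) (Z : Ω → γ) :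
    I (exL m ν) (fun a => X a.1) (fun a => Y a.1) (fun a => Z a.1) = I ν X Y Z := by
  unfold I
  rw [Hc_exL m ν X Z, Hc_exL m ν X (fun ω => (Y ω, Z ω))]

/-- conditioning on a function of the flag -/
theorem cnd_exL (ν : Ω → ℝ) (Y : Ω → β) (y : β) (a : Ω × Fin m) :
    cnd (exL m ν) (fun a => Y a.1) y a = exL m (cnd ν Y y) a := by
  classical
  have h1 : cnd (exL m ν) (fun a => Y a.1) y a =
      if Y a.1 = y then exL m ν a / Pr (exL m ν) (fun a => Y a.1) y else 0 := by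
    unfold cnd
    congr
  have h2 : exL m (cnd ν Y y) a = (if Y a.1 = y then ν a.1 / Pr ν Y y else 0) / m := by
    unfold exL cnd
    congr
  rw [h1, h2, Pr_exL m ν Y y]
  unfold exL
  split_ifs
  · ring
  · ring

theorem cnd_exL' (ν : Ω → ℝ) (Y : Ω → β) (y : β) :
    cnd (exL m ν) (fun a => Y a.1) y = exL m (cnd ν Y y) := by
  funext a
  exact cnd_exL m ν Y y a

theorem cE_exL (ν : Ω → ℝ) (Q : Ω → Prop) : cE (exL m ν) (fun a => Q a.1) = exL m (cE ν Q) :=
  cnd_exL' m ν Q True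

theorem PE_exL (ν : Ω → ℝ) (Q : Ω → Prop) : PE (exL m ν) (fun a => Q a.1) = PE ν Q :=
  Pr_exL m ν Q True

/-- a function of the flag together with the index: each value costs at most a factor `m` -/
theorem Pr_le_mul_Pr_pair {ν : Ω → ℝ} (hν : IsProb ν) {X : Ω → α} {k : Ω × Fin m → β}
    (hk : ∀ ω ω' r, X ω = X ω' → k (ω, r) = k (ω', r)) (a : Ω × Fin m) :
    Pr (exL m ν) (fun a => X a.1) (X a.1) ≤
      m * Pr (exL m ν) (fun a => (X a.1, k a)) (X a.1, k a) := by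
  classical
  rw [Pr_exL m ν X]
  have h1 : Pr ν X (X a.1) / m ≤ Pr (exL m ν) (fun a => (X a.1, k a)) (X a.1, k a) := by
    have h0 : Pr (exL m ν) (fun a => (X a.1, k a)) (X a.1, k a) =
        ∑ r : Fin m, ∑ ω, if (X ω, k (ω, r)) = (X a.1, k a) then exL m ν (ω, r) else 0 := by
      unfold Pr
      rw [Fintype.sum_prod_type_right]
      refine sum_congr rfl fun r _ => sum_congr rfl fun ω _ => ?_
      congr
    have h0' : Pr ν X (X a.1) = ∑ ω, if X ω = X a.1 then ν ω else 0 := by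
      unfold Pr
      refine sum_congr rfl fun ω _ => ?_
      congr
    have h2 : (∑ ω, if X ω = X a.1 then ν ω else 0) / m ≤
        ∑ ω, (if (X ω, k (ω, a.2)) = (X a.1, k a) then exL m ν (ω, a.2) else 0) := by
      rw [sum_div]
      refine sum_le_sum fun ω _ => ?_
      by_cases h : X ω = X a.1
      · have h3 : k (ω, a.2) = k a := hk ω a.1 a.2 h
        rw [if_pos h, if_pos (by rw [h, h3])]
        exact le_rfl
      · rw [if_neg h, zero_div]
        split_ifs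
        · exact div_nonneg (hν.nonneg _) (m_pos m).le
        · exact le_rfl
    rw [h0, h0']
    refine h2.trans ?_
    exact single_le_sum (f := fun r => ∑ ω, (if (X ω, k (ω, r)) = (X a.1, k a)
        then exL m ν (ω, r) else 0)) (fun r _ => sum_nonneg fun ω _ => by
          split_ifs
          · exact div_nonneg (hν.nonneg _) (m_pos m).le
          · exact le_rfl) (mem_univ a.2)
  rwa [div_le_iff₀' (m_pos m)] at h1

end law

end Vale.Agent.P065.H60
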