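import Vale.Agent.P065.H60.Ext

/-!
# P065, package EXT: transfer to the extended space (helper60)

`exL m ν` with `m = 2 ^ (q + 1)` is the law of (flag, uniform index); the law of the index given
the flag depends on the bottom piece only.
-/

set_option autoImplicit false

namespace Vale.Agent.P065.H60

open Finset Vale.Agent.P065.Ent Vale.Agent.P065.H268

namespace Itv

variable {Ω : Type*} (I : Itv Ω) (q : ℕ)

theorem k_congr {ω ω' : Ω} (h : I.P.W I.n ω = I.P.W I.n ω') (r : Fin (2 ^ (q + 1))) :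
    I.k q (ω, r) = I.k q (ω', r) := by
  unfold k
  rw [I.lo_congr _ _ h, I.hi_congr _ _ h]

theorem x_congr {ω ω' : Ω} (h : I.P.W I.n ω = I.P.W I.n ω') (r : Fin (2 ^ (q + 1))) :
    I.x q (ω, r) = I.x q (ω', r) := by
  unfold x
  rw [I.lo_congr _ _ h, I.hi_congr _ _ h]

theorem Wb_congr {ω ω' : Ω} (h : I.P.W I.n ω = I.P.W I.n ω') (r : Fin (2 ^ (q + 1))) :
    I.Wb q (ω, r) = I.Wb q (ω', r) := by
  unfold Wb
  rw [I.k_congr q h, h]

theorem det_Wb_W : Det (I.Wb q) (fun a => I.P.W I.n a.1) := fun a b h => ((I.Wb_eq_iff q a b).1 h).1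

theorem det_Wb_k : Det (I.Wb q) (I.k q) := fun a b h => ((I.Wb_eq_iff q a b).1 h).2

theorem det_Wb_x : Det (I.Wb q) (I.x q) := fun a b h => (I.Wb_eq_iff_x q a b).1 h

theorem det_x_Wb : Det (I.x q) (I.Wb q) := fun a b h => (I.Wb_eq_iff_x q a b).2 h

theorem det_Wb_TE : Det (I.Wb q) (I.TE q) := fun a b h => by
  unfold TE
  rw [I.T_congr (I.det_Wb_W q a b h)]

variable [Fintype Ω]

/-- the law of the index given a function of the flag which determines the bottom piece -/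
noncomputable def kap (a : Ω × Fin (2 ^ (q + 1))) : ℝ :=
  #{r : Fin (2 ^ (q + 1)) | I.k q (a.1, r) = I.k q a} / 2 ^ (q + 1)

omit [Fintype Ω] in
theorem kap_congr {a b : Ω × Fin (2 ^ (q + 1))} (h : I.Wb q a = I.Wb q b) :
    I.kap q a = I.kap q b := by
  unfold kap
  rw [I.det_Wb_k q a b h]
  congr 3
  ext r
  rw [mem_filter, mem_filter, I.k_congr q (I.det_Wb_W q a b h)]

omit [Fintype Ω] in
theorem kap_ge (a : Ω × Fin (2 ^ (q + 1))) : 1 / 2 ^ (q + 1) ≤ I.kap q a := by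
  unfold kap
  apply div_le_div_of_nonneg_right _ (by positivity)
  have : 0 < #{r : Fin (2 ^ (q + 1)) | I.k q (a.1, r) = I.k q a} :=
    card_pos.2 ⟨a.2, by simp⟩
  exact_mod_cast this

omit [Fintype Ω] in
theorem kap_pos (a : Ω × Fin (2 ^ (q + 1))) : 0 < I.kap q a :=
  lt_of_lt_of_le (by positivity) (I.kap_ge q a)

/-- **independence**: given a variable `X` of the flag which determines the bottom piece, the index
has the law `kap` -/
theorem Pr_pair {α : Type*} (ν : Ω → ℝ) {X : Ω → α} (hX : Det X (fun ω => I.P.W I.n ω))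
    (a : Ω × Fin (2 ^ (q + 1))) :
    Pr (exL (2 ^ (q + 1)) ν) (fun a => (X a.1, I.Wb q a)) (X a.1, I.Wb q a) =
      Pr ν X (X a.1) * I.kap q a := by
  classical
  have h0 : Pr (exL (2 ^ (q + 1)) ν) (fun a => (X a.1, I.Wb q a)) (X a.1, I.Wb q a) =
      ∑ ω, ∑ r : Fin (2 ^ (q + 1)), if (X ω, I.Wb q (ω, r)) = (X a.1, I.Wb q a)
        then exL (2 ^ (q + 1)) ν (ω, r) else 0 := by
    unfold Pr
    rw [Fintype.sum_prod_type]
    refine sum_congr rfl fun r _ => sum_congr rfl fun ω _ => ?_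
    congr
  have h1 : Pr ν X (X a.1) = ∑ ω, if X ω = X a.1 then ν ω else 0 := by
    unfold Pr
    refine sum_congr rfl fun ω _ => ?_
    congr
  rw [h0, h1, sum_mul]
  refine sum_congr rfl fun ω _ => ?_
  by_cases h : X ω = X a.1
  · rw [if_pos h]
    have hW : I.P.W I.n ω = I.P.W I.n a.1 := hX _ _ h
    have e : ∀ r, ((X ω, I.Wb q (ω, r)) = (X a.1, I.Wb q a)) ↔ I.k q (a.1, r) = I.k q a := by
      intro r
      rw [Prod.mk.injEq, I.Wb_eq_iff q, I.k_congr q hW]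
      exact ⟨fun h => h.2.2, fun h' => ⟨h, hW, h'⟩⟩
    have e2 : (∑ r : Fin (2 ^ (q + 1)), if (X ω, I.Wb q (ω, r)) = (X a.1, I.Wb q a)
        then exL (2 ^ (q + 1)) ν (ω, r) else 0) =
        ∑ r : Fin (2 ^ (q + 1)), if I.k q (a.1, r) = I.k q a then ν ω / 2 ^ (q + 1) else 0 := by
      refine sum_congr rfl fun r _ => ?_
      rw [exL_def]
      push_cast
      by_cases h2 : I.k q (a.1, r) = I.k q a
      · rw [if_pos h2, if_pos ((e r).2 h2)]
      · rw [if_neg h2, if_neg fun h3 => h2 ((e r).1 h3)]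
    rw [e2, sum_ite, sum_const_zero, add_zero, sum_const, nsmul_eq_mul]
    unfold kap
    ring
  · rw [if_neg h, zero_mul]
    refine sum_eq_zero fun r _ => if_neg fun h2 => h (Prod.mk.inj h2).1

/-- the law of the bottom piece of the extended space -/
theorem Pr_Wb (ν : Ω → ℝ) (a : Ω × Fin (2 ^ (q + 1))) :
    Pr (exL (2 ^ (q + 1)) ν) (I.Wb q) (I.Wb q a) =
      Pr ν (fun ω => I.P.W I.n ω) (I.P.W I.n a.1) * I.kap q a := by
  rw [← I.Pr_pair q ν (Det.refl _) a]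
  exact Pr_congr (μ := exL (2 ^ (q + 1)) ν) (X := I.Wb q)
    (Y := fun a => (I.P.W I.n a.1, I.Wb q a)) ((I.det_Wb_W q).pair (Det.refl _)) (det_snd _ _) a

/-- conditional entropies given the bottom piece do not change -/
theorem Hc_Wb {α : Type*} {ν : Ω → ℝ} (hν : IsProb ν) (X : Ω → α) :
    Hc (exL (2 ^ (q + 1)) ν) (fun a => X a.1) (I.Wb q) = Hc ν X (fun ω => I.P.W I.n ω) := by
  have hE := exL_isProb (2 ^ (q + 1)) hν
  have h0 : Hc (exL (2 ^ (q + 1)) ν) (fun a => X a.1) (I.Wb q) =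
      Hc (exL (2 ^ (q + 1)) ν) (fun a => X a.1) (fun a => (I.P.W I.n a.1, I.Wb q a)) :=
    Hc_congr (Det.refl _) (Det.refl _) ((I.det_Wb_W q).pair (Det.refl _)) (det_snd _ _)
  rw [h0, Hc_eq_sum hE, Hc_eq_sum hν,
    ← sum_exL_fst (2 ^ (q + 1)) ν (fun ω => - Real.log
      (Pr ν (fun ω => (X ω, I.P.W I.n ω)) (X ω, I.P.W I.n ω) /
        Pr ν (fun ω => I.P.W I.n ω) (I.P.W I.n ω)))]
  refine sum_congr rfl fun a _ => ?_
  congr 2
  have h1 := I.Pr_pair q ν (X := fun ω => (X ω, I.P.W I.n ω)) (det_snd _ _) a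
  have h2 := I.Pr_pair q ν (X := fun ω => I.P.W I.n ω) (Det.refl _) a
  have h3 : Pr (exL (2 ^ (q + 1)) ν) (fun a => (X a.1, (I.P.W I.n a.1, I.Wb q a)))
      (X a.1, (I.P.W I.n a.1, I.Wb q a)) =
      Pr (exL (2 ^ (q + 1)) ν) (fun a => ((X a.1, I.P.W I.n a.1), I.Wb q a))
      ((X a.1, I.P.W I.n a.1), I.Wb q a) :=
    Pr_congr (μ := exL (2 ^ (q + 1)) ν)
      (X := fun a : Ω × Fin (2 ^ (q + 1)) => (X a.1, (I.P.W I.n a.1, I.Wb q a)))
      (Y := fun a : Ω × Fin (2 ^ (q + 1)) => ((X a.1, I.P.W I.n a.1), I.Wb q a))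
      (fun a b h => by
        simp only [Prod.mk.injEq] at h ⊢
        exact ⟨⟨h.1, h.2.1⟩, h.2.2⟩)
      (fun a b h => by
        simp only [Prod.mk.injEq] at h ⊢
        exact ⟨h.1.1, h.1.2, h.2⟩) a
  rw [h3, h1, h2, mul_div_mul_right _ _ (I.kap_pos q a).ne']

/-- entropy of the index -/
theorem Hc_Wb_le {α : Type*} {ν : Ω → ℝ} (hν : IsProb ν) {X : Ω × Fin (2 ^ (q + 1)) → α}
    (hX : Det X (fun a => I.P.W I.n a.1)) :
    Hc (exL (2 ^ (q + 1)) ν) (I.Wb q) X ≤ (q + 1) * Real.log 2 := by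
  have h := Hc_le_log (exL_isProb (2 ^ (q + 1)) hν) (I.Wb q) X (2 ^ (q + 1)) (by positivity)
    (fun a => ⟨(range (2 ^ (q + 1))).image (fun i => 2 ^ (q + 1) * I.P.W I.n a.1 + i),
      card_image_le.trans (by rw [card_range]), fun b hb => by
        rw [mem_image]
        refine ⟨I.k q b, mem_range.2 (I.k_lt q b), ?_⟩
        have h1 : I.P.W I.n b.1 = I.P.W I.n a.1 := hX _ _ hb
        unfold Wb
        rw [h1]⟩)
  rw [Nat.cast_pow, Real.log_pow] at h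
  push_cast at h
  exact h

/-- pointwise: the bottom piece of the extended space costs at most `(q + 1) log 2` -/
theorem Pr_le_mul {α : Type*} {ν : Ω → ℝ} (hν : IsProb ν) {X : Ω → α}
    (hX : Det X (fun ω => I.P.W I.n ω)) (a : Ω × Fin (2 ^ (q + 1))) :
    Pr ν X (X a.1) ≤ 2 ^ (q + 1) *
      Pr (exL (2 ^ (q + 1)) ν) (fun a => (X a.1, I.Wb q a)) (X a.1, I.Wb q a) := by
  rw [I.Pr_pair q ν hX a]
  have h1 := I.kap_ge q a
  have h2 : (0 : ℝ) < 2 ^ (q + 1) := by positivity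
  rw [div_le_iff₀ h2] at h1
  have h3 := Pr_nonneg hν X (X a.1)
  nlinarith

/-- **time surprise along the line** on the extended space -/
theorem sur {α : Type*} {ν : Ω → ℝ} (hν : IsProb ν) (Y : Ω → α) (a : Ω × Fin (2 ^ (q + 1)))
    (ha : 0 < ν a.1) :
    - Real.log (Pr ν (fun ω => (I.P.W I.n ω, Y ω)) (I.P.W I.n a.1, Y a.1) / Pr ν Y (Y a.1)) ≤
      - Real.log (Pr (exL (2 ^ (q + 1)) ν) (fun a => (I.Wb q a, Y a.1)) (I.Wb q a, Y a.1) /
        Pr (exL (2 ^ (q + 1)) ν) (fun a => Y a.1) (Y a.1)) := by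
  have hE := exL_isProb (2 ^ (q + 1)) hν
  have haE : 0 < exL (2 ^ (q + 1)) ν a := exL_pos _ ha
  apply neg_le_neg
  apply Real.log_le_log
  · exact div_pos (Pr_pos hE (fun a => (I.Wb q a, Y a.1)) haE) (Pr_pos hE (fun a => Y a.1) haE)
  · rw [Pr_exL]
    apply div_le_div_of_nonneg_right _ (Pr_nonneg hν _ _)
    have h1 : Pr (exL (2 ^ (q + 1)) ν) (fun a => (I.Wb q a, Y a.1)) (I.Wb q a, Y a.1) ≤
        Pr (exL (2 ^ (q + 1)) ν) (fun a => (I.P.W I.n a.1, Y a.1)) (I.P.W I.n a.1, Y a.1) :=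
      Pr_mono hE (X := fun a => (I.Wb q a, Y a.1)) (Y := fun a => (I.P.W I.n a.1, Y a.1))
        (((det_fst _ _).trans (I.det_Wb_W q)).pair (det_snd _ _)) a
    refine h1.trans (le_of_eq ?_)
    exact Pr_exL (2 ^ (q + 1)) ν (fun ω => (I.P.W I.n ω, Y ω)) (I.P.W I.n a.1, Y a.1)

open Classical in
/-- **bad blocks** on the extended space: at most one more -/
theorem card_bad_le {α : Type*} {ν : Ω → ℝ} (Y : Ω → α) (ρ : ℝ) (a : Ω × Fin (2 ^ (q + 1))) :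
    #{j ∈ range (I.n + 1) | ρ * Pr (exL (2 ^ (q + 1)) ν)
        (fun a => ((I.ext q).W j a, Y a.1)) ((I.ext q).W j a, Y a.1) <
      Pr (exL (2 ^ (q + 1)) ν)
        (fun a => ((I.ext q).W (j + 1) a, Y a.1)) ((I.ext q).W (j + 1) a, Y a.1)} ≤
    #{j ∈ range I.n | ρ * Pr ν (fun ω => (I.P.W j ω, Y ω)) (I.P.W j a.1, Y a.1) <
      Pr ν (fun ω => (I.P.W (j + 1) ω, Y ω)) (I.P.W (j + 1) a.1, Y a.1)} + 1 := by
  have e : ∀ j ≤ I.n, Pr (exL (2 ^ (q + 1)) ν)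
      (fun a => ((I.ext q).W j a, Y a.1)) ((I.ext q).W j a, Y a.1) =
      Pr ν (fun ω => (I.P.W j ω, Y ω)) (I.P.W j a.1, Y a.1) := by
    intro j hj
    have h1 : (fun a : Ω × Fin (2 ^ (q + 1)) => ((I.ext q).W j a, Y a.1)) =
        fun a => (I.P.W j a.1, Y a.1) := by
      funext a
      rw [I.ext_W q hj]
    rw [h1, I.ext_W q hj]
    exact Pr_exL (2 ^ (q + 1)) ν (fun ω => (I.P.W j ω, Y ω)) (I.P.W j a.1, Y a.1)
  rw [range_add_one, filter_insert]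
  have h2 : ({j ∈ range I.n | ρ * Pr (exL (2 ^ (q + 1)) ν)
        (fun a => ((I.ext q).W j a, Y a.1)) ((I.ext q).W j a, Y a.1) <
      Pr (exL (2 ^ (q + 1)) ν)
        (fun a => ((I.ext q).W (j + 1) a, Y a.1)) ((I.ext q).W (j + 1) a, Y a.1)} : Finset ℕ) =
      {j ∈ range I.n | ρ * Pr ν (fun ω => (I.P.W j ω, Y ω)) (I.P.W j a.1, Y a.1) <
      Pr ν (fun ω => (I.P.W (j + 1) ω, Y ω)) (I.P.W (j + 1) a.1, Y a.1)} := by
    refine filter_congr fun j hj => ?_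
    rw [mem_range] at hj
    rw [e j hj.le, e (j + 1) hj]
  rw [h2]
  split_ifs
  · exact card_insert_le _ _
  · omega

/-! ## The scale of the bottom interval -/

/-- the length of the bottom interval in the extended space -/
theorem len_le (a : Ω × Fin (2 ^ (q + 1))) : 2 ^ I.T a.1 * (I.ext q).len I.n a ≤ 2 := by
  obtain ⟨b, hb, hb'⟩ := (I.ext q).exists_hi I.n a
  obtain ⟨c, hc, hc'⟩ := (I.ext q).exists_lo I.n a
  rw [I.ext_W q le_rfl, I.ext_W q le_rfl] at hb hc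
  have hbk := I.k_lt q b
  have hcm := gM_mul_gpt q (I.lo c.1) (I.hi c.1) c.2
  have hbm := gM_mul_gpt q (I.lo b.1) (I.hi b.1) b.2
  rw [I.lo_congr _ _ hb, I.hi_congr _ _ hb] at hbm
  rw [I.lo_congr _ _ hc, I.hi_congr _ _ hc] at hcm
  have eb : I.x q b = gpt q (I.lo a.1) (I.hi a.1) b.2 := by
    unfold x
    rw [I.lo_congr _ _ hb, I.hi_congr _ _ hb]
  have ec : I.x q c = gpt q (I.lo a.1) (I.hi a.1) c.2 := by
    unfold x
    rw [I.lo_congr _ _ hc, I.hi_congr _ _ hc]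
  have ek : I.k q b = gk q (I.lo a.1) (I.hi a.1) b.2 := by
    unfold k
    rw [I.lo_congr _ _ hb, I.hi_congr _ _ hb]
  rw [← eb] at hbm
  rw [← ec] at hcm
  rw [← ek] at hbm
  have hM := I.gM_eq q a
  rw [hM] at hbm hcm
  push_cast at hbm hcm
  have h1 : (2 : ℝ) ^ I.TE q a * (I.x q b - I.x q c) ≤ 2 ^ (q + 1) - 1 := by
    have h2 : (I.k q b : ℝ) + 1 ≤ 2 ^ (q + 1) := by exact_mod_cast hbk
    have h3 : (0 : ℝ) ≤ ((gk q (I.lo a.1) (I.hi a.1) c.2 : ℕ) : ℝ) := Nat.cast_nonneg _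
    rw [mul_sub, hbm, hcm]
    linarith
  have h4 : (2 : ℝ) ^ I.TE q a * (I.ext q).δ ≤ 1 := by
    show (2 : ℝ) ^ I.TE q a * (1 / 2 ^ I.R q) ≤ 1
    rw [mul_one_div, div_le_one (by positivity)]
    exact pow_le_pow_right₀ (by norm_num) (I.TE_le_R q a)
  have h5 : (2 : ℝ) ^ I.TE q a * (I.ext q).len I.n a ≤ 2 ^ (q + 1) := by
    unfold Pcs.len
    rw [← hb', ← hc', I.ext_x, I.ext_x, mul_add]
    linarith
  have e5 : (2 : ℝ) ^ I.TE q a = 2 ^ I.T a.1 * 2 ^ q := pow_add _ _ _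
  have e6 : (2 : ℝ) ^ (q + 1) = 2 ^ q * 2 := pow_succ _ _
  rw [e5, e6] at h5
  have h6 : (0 : ℝ) < 2 ^ q := by positivity
  nlinarith

/-- the length of the bottom interval in the extended space -/
theorem le_len (hq : 1 ≤ q) (a : Ω × Fin (2 ^ (q + 1))) :
    1 < 2 ^ (I.T a.1 + 1) * (I.ext q).len I.n a := by
  have hlt := I.lo_lt_hi a.1
  have hN := two_pow_le_gN q hlt
  have hNle := gN_le q hlt (I.sub_le_one a.1)
  have h2q : 2 ≤ 2 ^ q := by
    calc 2 = 2 ^ 1 := rfl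
      _ ≤ 2 ^ q := Nat.pow_le_pow_right (by norm_num) hq
  set r0 : Fin (2 ^ (q + 1)) := ⟨0, by positivity⟩ with hr0
  set r1 : Fin (2 ^ (q + 1)) := ⟨gN q (I.lo a.1) (I.hi a.1) - 1, by omega⟩ with hr1
  have e0 : gk q (I.lo a.1) (I.hi a.1) r0 = r0 := gk_of_lt q (by
    show 0 < gN q (I.lo a.1) (I.hi a.1)
    omega)
  have e1 : gk q (I.lo a.1) (I.hi a.1) r1 = r1 := gk_of_lt q (by
    show gN q (I.lo a.1) (I.hi a.1) - 1 < gN q (I.lo a.1) (I.hi a.1)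
    omega)
  have h0 := gM_mul_gpt q (I.lo a.1) (I.hi a.1) r0
  have h1 := gM_mul_gpt q (I.lo a.1) (I.hi a.1) r1
  rw [e0] at h0
  rw [e1] at h1
  have hM := I.gM_eq q a
  rw [hM] at h0 h1
  have hs := (I.ext q).sub_le_len (j := I.n) (ω := a) (a := (a.1, r0)) (b := (a.1, r1))
    (by rw [I.ext_W q le_rfl, I.ext_W q le_rfl]) (by rw [I.ext_W q le_rfl, I.ext_W q le_rfl])
  have hx0 : (I.ext q).x (a.1, r0) = gpt q (I.lo a.1) (I.hi a.1) r0 := rfl
  have hx1 : (I.ext q).x (a.1, r1) = gpt q (I.lo a.1) (I.hi a.1) r1 := rfl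
  rw [hx0, hx1] at hs
  have hδ := (I.ext q).δ_pos
  have hTE : (0 : ℝ) < 2 ^ I.TE q a := by positivity
  have h5 : (2 : ℝ) ^ q - 1 ≤ 2 ^ I.TE q a *
      (gpt q (I.lo a.1) (I.hi a.1) r1 - gpt q (I.lo a.1) (I.hi a.1) r0) := by
    rw [mul_sub, h0, h1]
    have hv : ((r1 : ℕ) : ℝ) + 1 ≥ 2 ^ q := by
      have : 2 ^ q ≤ (r1 : ℕ) + 1 := by
        show 2 ^ q ≤ gN q (I.lo a.1) (I.hi a.1) - 1 + 1
        omega
      exact_mod_cast this
    have hv0 : ((r0 : ℕ) : ℝ) = 0 := by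
      rw [hr0]
      simp
    push_cast
    rw [hv0]
    linarith
  have h6 : (2 : ℝ) ^ q / 2 ≤ 2 ^ q - 1 := by
    have : (2 : ℝ) ≤ 2 ^ q := by exact_mod_cast h2q
    linarith
  have h7 : (2 : ℝ) ^ q / 2 < 2 ^ I.TE q a * (I.ext q).len I.n a := by
    have h8 : 2 ^ I.TE q a * (gpt q (I.lo a.1) (I.hi a.1) r1 - gpt q (I.lo a.1) (I.hi a.1) r0) <
        2 ^ I.TE q a * (I.ext q).len I.n a := mul_lt_mul_of_pos_left (by linarith) hTE
    linarith
  have e5 : (2 : ℝ) ^ I.TE q a = 2 ^ I.T a.1 * 2 ^ q := pow_add _ _ _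
  rw [e5] at h7
  have h9 : (0 : ℝ) < 2 ^ q := by positivity
  have e6 : (2 : ℝ) ^ (I.T a.1 + 1) = 2 ^ I.T a.1 * 2 := pow_succ _ _
  rw [e6]
  nlinarith

theorem tm_le (hq : 1 ≤ q) (a : Ω × Fin (2 ^ (q + 1))) : (I.ext q).tm I.n a ≤ I.T a.1 + 3 := by
  apply (I.ext q).tm_le
  have h := I.le_len q hq a
  have e : (2 : ℝ) ^ (I.T a.1 + 3) = 4 * 2 ^ (I.T a.1 + 1) := by ring
  rw [e]
  linarith

theorem le_tm (a : Ω × Fin (2 ^ (q + 1))) : I.T a.1 + 1 ≤ (I.ext q).tm I.n a := by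
  by_contra hc
  push Not at hc
  have h1 := (I.ext q).tm_spec I.n a
  have h2 := I.len_le q a
  have h3 : (2 : ℝ) ^ (I.ext q).tm I.n a ≤ 2 ^ I.T a.1 :=
    pow_le_pow_right₀ (by norm_num) (by omega)
  have h4 := (I.ext q).len_pos I.n a
  nlinarith

end Itv

end Vale.Agent.P065.H60
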