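import Mathlib

/-!
# P065: dyadic grid points inside one interval (helper60, package EXT)

`lo < hi`, `hi - lo ≤ 1`, `P : ℕ`: `T` is the scale of the interval
(`2 ^ (-T) < hi - lo ≤ 2 * 2 ^ (-T)`), the step is `2 ^ (-(T + P))`; the points `pt r`,
`r : Fin (2 ^ (P + 1))`, are the grid points inside the interval (some of them repeated).
-/

set_option autoImplicit false

namespace Vale.Agent.P065.H60

open Finset

open Classical in
/-- the scale of the interval -/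
noncomputable def gT (lo hi : ℝ) : ℕ :=
  if h : ∃ t : ℕ, 1 < (2 : ℝ) ^ t * (hi - lo) then Nat.find h else 0

theorem exists_gT {lo hi : ℝ} (h : lo < hi) : ∃ t : ℕ, 1 < (2 : ℝ) ^ t * (hi - lo) := by
  obtain ⟨t, ht⟩ := pow_unbounded_of_one_lt (1 / (hi - lo)) (one_lt_two : (1 : ℝ) < 2)
  refine ⟨t, ?_⟩
  rwa [div_lt_iff₀ (by linarith)] at ht

theorem one_lt_gT {lo hi : ℝ} (h : lo < hi) : 1 < (2 : ℝ) ^ gT lo hi * (hi - lo) := by
  classical
  have hex := exists_gT h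
  unfold gT
  rw [dif_pos hex]
  exact Nat.find_spec hex

theorem gT_le_two {lo hi : ℝ} (h : lo < hi) (h1 : hi - lo ≤ 1) :
    (2 : ℝ) ^ gT lo hi * (hi - lo) ≤ 2 := by
  classical
  have hex := exists_gT h
  have h0 := one_lt_gT h
  have hT : gT lo hi = Nat.find hex := by
    unfold gT
    rw [dif_pos hex]
  rcases Nat.eq_zero_or_pos (gT lo hi) with h2 | h2
  · rw [h2, pow_zero, one_mul] at h0
    linarith
  · have h3 := Nat.find_min hex (m := gT lo hi - 1) (by omega)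
    rw [not_lt] at h3
    obtain ⟨s, hs⟩ : ∃ s, gT lo hi = s + 1 := ⟨gT lo hi - 1, by omega⟩
    rw [hs, Nat.add_sub_cancel] at h3
    rw [hs, pow_succ]
    linarith

/-- the inverse of the step -/
noncomputable def gM (P : ℕ) (lo hi : ℝ) : ℝ := 2 ^ (gT lo hi + P)

theorem gM_pos (P : ℕ) (lo hi : ℝ) : 0 < gM P lo hi := by
  unfold gM
  positivity

theorem one_le_gM (P : ℕ) (lo hi : ℝ) : 1 ≤ gM P lo hi := by
  unfold gM
  exact one_le_pow₀ (by norm_num)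

theorem lt_gM (P : ℕ) {lo hi : ℝ} (h : lo < hi) : (2 : ℝ) ^ P < gM P lo hi * (hi - lo) := by
  have h1 := one_lt_gT h
  have h2 : (0 : ℝ) < 2 ^ P := by positivity
  unfold gM
  rw [pow_add]
  nlinarith

theorem gM_le (P : ℕ) {lo hi : ℝ} (h : lo < hi) (h1 : hi - lo ≤ 1) :
    gM P lo hi * (hi - lo) ≤ 2 ^ (P + 1) := by
  have h1 := gT_le_two h h1
  have h2 : (0 : ℝ) < 2 ^ P := by positivity
  unfold gM
  rw [pow_add, pow_succ]
  nlinarith

/-- the number of grid points inside the interval -/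
noncomputable def gN (P : ℕ) (lo hi : ℝ) : ℕ :=
  (⌈hi * gM P lo hi⌉ - ⌊lo * gM P lo hi⌋ - 1).toNat

theorem gN_cast (P : ℕ) {lo hi : ℝ} (h : lo < hi) :
    ((gN P lo hi : ℕ) : ℤ) = ⌈hi * gM P lo hi⌉ - ⌊lo * gM P lo hi⌋ - 1 := by
  unfold gN
  apply Int.toNat_of_nonneg
  have h1 : ⌊lo * gM P lo hi⌋ < ⌈hi * gM P lo hi⌉ := by
    have h2 : (⌊lo * gM P lo hi⌋ : ℝ) ≤ lo * gM P lo hi := Int.floor_le _
    have h3 : hi * gM P lo hi ≤ (⌈hi * gM P lo hi⌉ : ℝ) := Int.le_ceil _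
    have h4 : lo * gM P lo hi < hi * gM P lo hi := mul_lt_mul_of_pos_right h (gM_pos _ _ _)
    have h5 : (⌊lo * gM P lo hi⌋ : ℝ) < (⌈hi * gM P lo hi⌉ : ℝ) := by linarith
    exact_mod_cast h5
  omega

theorem two_pow_le_gN (P : ℕ) {lo hi : ℝ} (h : lo < hi) : 2 ^ P ≤ gN P lo hi := by
  have h1 := gN_cast P h
  have h2 : (⌊lo * gM P lo hi⌋ : ℝ) ≤ lo * gM P lo hi := Int.floor_le _
  have h3 : hi * gM P lo hi ≤ (⌈hi * gM P lo hi⌉ : ℝ) := Int.le_ceil _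
  have h4 := lt_gM P h
  have h5 : ((2 ^ P : ℕ) : ℝ) < ((gN P lo hi : ℕ) : ℝ) + 1 := by
    have h6 : ((gN P lo hi : ℕ) : ℝ) = (⌈hi * gM P lo hi⌉ : ℝ) - (⌊lo * gM P lo hi⌋ : ℝ) - 1 := by
      exact_mod_cast h1
    rw [h6]
    push_cast
    linarith
  have h7 : 2 ^ P < gN P lo hi + 1 := by exact_mod_cast h5
  omega

theorem gN_le (P : ℕ) {lo hi : ℝ} (h : lo < hi) (h1 : hi - lo ≤ 1) :
    gN P lo hi ≤ 2 ^ (P + 1) := by
  have h0 := gN_cast P h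
  have h2 : lo * gM P lo hi < (⌊lo * gM P lo hi⌋ : ℝ) + 1 := Int.lt_floor_add_one _
  have h3 : (⌈hi * gM P lo hi⌉ : ℝ) < hi * gM P lo hi + 1 := Int.ceil_lt_add_one _
  have h4 := gM_le P h h1
  have h5 : ((gN P lo hi : ℕ) : ℝ) < ((2 ^ (P + 1) : ℕ) : ℝ) + 1 := by
    have h6 : ((gN P lo hi : ℕ) : ℝ) = (⌈hi * gM P lo hi⌉ : ℝ) - (⌊lo * gM P lo hi⌋ : ℝ) - 1 := by
      exact_mod_cast h0
    rw [h6]
    push_cast
    linarith
  have h7 : gN P lo hi < 2 ^ (P + 1) + 1 := by exact_mod_cast h5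
  omega

/-- the position of the point with index `r` -/
noncomputable def gk (P : ℕ) (lo hi : ℝ) (r : Fin (2 ^ (P + 1))) : Fin (2 ^ (P + 1)) :=
  if (r : ℕ) < gN P lo hi then r else ⟨0, by positivity⟩

theorem gk_lt (P : ℕ) {lo hi : ℝ} (h : lo < hi) (r : Fin (2 ^ (P + 1))) :
    (gk P lo hi r : ℕ) < gN P lo hi := by
  unfold gk
  split_ifs with h1
  · exact h1
  · exact lt_of_lt_of_le (by positivity) (two_pow_le_gN P h)

theorem gk_of_lt (P : ℕ) {lo hi : ℝ} {r : Fin (2 ^ (P + 1))} (h : (r : ℕ) < gN P lo hi) :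
    gk P lo hi r = r := by
  unfold gk
  rw [if_pos h]

/-- the grid points inside the interval -/
noncomputable def gpt (P : ℕ) (lo hi : ℝ) (r : Fin (2 ^ (P + 1))) : ℝ :=
  ((⌊lo * gM P lo hi⌋ + 1 + ((gk P lo hi r : ℕ) : ℤ) : ℤ) : ℝ) / gM P lo hi

/-- the points are dyadic -/
theorem gM_mul_gpt (P : ℕ) (lo hi : ℝ) (r : Fin (2 ^ (P + 1))) :
    gM P lo hi * gpt P lo hi r = ((⌊lo * gM P lo hi⌋ + 1 + ((gk P lo hi r : ℕ) : ℤ) : ℤ) : ℝ) := by
  unfold gpt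
  rw [mul_div_cancel₀ _ (gM_pos _ _ _).ne']

theorem lo_lt_gpt (P : ℕ) (lo hi : ℝ) (r : Fin (2 ^ (P + 1))) : lo < gpt P lo hi r := by
  unfold gpt
  rw [lt_div_iff₀ (gM_pos _ _ _)]
  have h1 := Int.lt_floor_add_one (lo * gM P lo hi)
  have h2 : (0 : ℝ) ≤ ((gk P lo hi r : ℕ) : ℝ) := Nat.cast_nonneg _
  push_cast
  linarith

theorem gpt_lt_hi (P : ℕ) {lo hi : ℝ} (h : lo < hi) (r : Fin (2 ^ (P + 1))) :
    gpt P lo hi r < hi := by
  unfold gpt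
  rw [div_lt_iff₀ (gM_pos _ _ _)]
  have h1 := gk_lt P h r
  have h2 := gN_cast P h
  have h3 : ((gk P lo hi r : ℕ) : ℤ) + 1 ≤ ⌈hi * gM P lo hi⌉ - ⌊lo * gM P lo hi⌋ - 1 := by
    rw [← h2]
    exact_mod_cast h1
  have h4 : ⌊lo * gM P lo hi⌋ + 1 + ((gk P lo hi r : ℕ) : ℤ) < ⌈hi * gM P lo hi⌉ := by omega
  exact Int.lt_ceil.1 h4

/-- order of the points -/
theorem gpt_le_iff (P : ℕ) (lo hi : ℝ) (r r' : Fin (2 ^ (P + 1))) :
    gpt P lo hi r ≤ gpt P lo hi r' ↔ (gk P lo hi r : ℕ) ≤ gk P lo hi r' := by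
  unfold gpt
  rw [div_le_div_iff_of_pos_right (gM_pos _ _ _)]
  constructor
  · intro h
    have h1 : ⌊lo * gM P lo hi⌋ + 1 + ((gk P lo hi r : ℕ) : ℤ) ≤
      ⌊lo * gM P lo hi⌋ + 1 + ((gk P lo hi r' : ℕ) : ℤ) := by exact_mod_cast h
    omega
  · intro h
    have h1 : ⌊lo * gM P lo hi⌋ + 1 + ((gk P lo hi r : ℕ) : ℤ) ≤
      ⌊lo * gM P lo hi⌋ + 1 + ((gk P lo hi r' : ℕ) : ℤ) := by omega
    exact_mod_cast h1

theorem gpt_eq_iff (P : ℕ) (lo hi : ℝ) (r r' : Fin (2 ^ (P + 1))) :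
    gpt P lo hi r = gpt P lo hi r' ↔ gk P lo hi r = gk P lo hi r' := by
  rw [le_antisymm_iff, gpt_le_iff, gpt_le_iff, ← le_antisymm_iff]
  exact Fin.val_inj

/-- two different points are separated -/
theorem gpt_sep (P : ℕ) (lo hi : ℝ) {r r' : Fin (2 ^ (P + 1))}
    (h : gpt P lo hi r < gpt P lo hi r') :
    gpt P lo hi r + 1 / gM P lo hi ≤ gpt P lo hi r' := by
  have h1 : (gk P lo hi r : ℕ) < gk P lo hi r' := by
    by_contra hc
    exact absurd ((gpt_le_iff P lo hi r' r).2 (not_lt.1 hc)) (not_le.2 h)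
  unfold gpt
  rw [← add_div, div_le_div_iff_of_pos_right (gM_pos _ _ _)]
  have h2 : (⌊lo * gM P lo hi⌋ + 1 + ((gk P lo hi r : ℕ) : ℤ)) + 1 ≤
      ⌊lo * gM P lo hi⌋ + 1 + ((gk P lo hi r' : ℕ) : ℤ) := by omega
  exact_mod_cast h2

/-- the points are dense in the interval -/
theorem gpt_cover (P : ℕ) {lo hi : ℝ} (h : lo < hi) (h1 : hi - lo ≤ 1) {x : ℝ} (hx0 : lo ≤ x)
    (hx1 : x ≤ hi) : ∃ r, |gpt P lo hi r - x| ≤ 1 / gM P lo hi := by
  have hM := gM_pos P lo hi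
  set M := gM P lo hi with hMdef
  set z0 := ⌊lo * M⌋ with hz0
  set z1 := ⌈hi * M⌉ with hz1
  have hN : ((gN P lo hi : ℕ) : ℤ) = z1 - z0 - 1 := gN_cast P h
  have hNle := gN_le P h h1
  have hN0 : 0 < gN P lo hi := lt_of_lt_of_le (by positivity) (two_pow_le_gN P h)
  -- the integer `z` : the floor of `x M`, moved into the range
  set z := max (min ⌊x * M⌋ (z1 - 1)) (z0 + 1) with hz
  have hz01 : z0 + 1 ≤ z1 - 1 := by omega
  have ha : z0 + 1 ≤ z := le_max_right _ _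
  have hb : z ≤ z1 - 1 := max_le (min_le_right _ _) hz01
  obtain ⟨i, hi'⟩ : ∃ i : ℕ, z = z0 + 1 + i := ⟨(z - (z0 + 1)).toNat, by omega⟩
  have hiN : i < gN P lo hi := by omega
  have him : i < 2 ^ (P + 1) := lt_of_lt_of_le hiN hNle
  refine ⟨⟨i, him⟩, ?_⟩
  have e1 : gpt P lo hi ⟨i, him⟩ = (z : ℝ) / M := by
    unfold gpt
    rw [gk_of_lt P (r := ⟨i, him⟩) hiN, hi']
  rw [e1, abs_le]
  have f1 : (⌊x * M⌋ : ℝ) ≤ x * M := Int.floor_le _
  have f2 : x * M < (⌊x * M⌋ : ℝ) + 1 := Int.lt_floor_add_one _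
  have f3 : (z0 : ℝ) ≤ lo * M := Int.floor_le _
  have f4 : hi * M ≤ (z1 : ℝ) := Int.le_ceil _
  have f5 : lo * M ≤ x * M := mul_le_mul_of_nonneg_right hx0 hM.le
  have f6 : x * M ≤ hi * M := mul_le_mul_of_nonneg_right hx1 hM.le
  have g1 : (z : ℝ) ≤ x * M + 1 := by
    have : z ≤ max ⌊x * M⌋ (z0 + 1) := max_le_max (min_le_left _ _) le_rfl
    rcases le_total ⌊x * M⌋ (z0 + 1) with h2 | h2
    · rw [max_eq_right h2] at this
      have h3 : (z : ℝ) ≤ (z0 : ℝ) + 1 := by exact_mod_cast this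
      linarith
    · rw [max_eq_left h2] at this
      have h3 : (z : ℝ) ≤ (⌊x * M⌋ : ℝ) := by exact_mod_cast this
      linarith
  have g2 : x * M - 1 ≤ (z : ℝ) := by
    have h2 : min ⌊x * M⌋ (z1 - 1) ≤ z := le_max_left _ _
    rcases le_total ⌊x * M⌋ (z1 - 1) with h3 | h3
    · rw [min_eq_left h3] at h2
      have h4 : (⌊x * M⌋ : ℝ) ≤ (z : ℝ) := by exact_mod_cast h2
      linarith
    · rw [min_eq_right h3] at h2
      have h4 : ((z1 - 1 : ℤ) : ℝ) ≤ (z : ℝ) := by exact_mod_cast h2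
      push_cast at h4
      linarith
  constructor
  · rw [neg_le_sub_iff_le_add, ← add_div, le_div_iff₀ hM]
    linarith
  · rw [tsub_le_iff_right, div_le_iff₀ hM]
    have e2 : (1 / M + x) * M = 1 + x * M := by
      field_simp
    rw [e2]
    linarith

end Vale.Agent.P065.H60
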